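import Vale.Agent.P154.R4K.MasterK
import Vale.Agent.P154.R4.KForm
import Vale.Agent.P154.R4.CertA

/-!
# P154 q = 4: generic assembly of the closure inequality

`lbS k U l1 l2 l3` is the closure kernel `KQ (psK k) a b` (`U = uQ a b`, `Z = e1Q U`) with `1 / Z ^ j` replaced by `l_j`, written so that
the three coefficients `3 Z^2 - 8 e2`, `e3`, `(3 Z^2 - 8 e2) e2` are nonnegative.
`keyC_asm`: positivity of the certificate expression + the identities for the term lists give the closure inequality.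
-/

namespace Vale.Agent.P154

open Finset

noncomputable def lbS (k : ℝ) (U : Fin 4 → ℝ) (l1 l2 l3 : ℝ) : ℝ :=
  -e1Q U + (3 - k) / 3 * (3 * e1Q U ^ 2 - 8 * e2Q U) * l1 + 16 * e3Q U * l2
    + 8 * k / 9 * ((3 * e1Q U ^ 2 - 8 * e2Q U) * e2Q U) * l3

theorem nsq_nonneg (U : Fin 4 → ℝ) : 0 ≤ 3 * e1Q U ^ 2 - 8 * e2Q U := by
  unfold e1Q e2Q
  nlinarith [sq_nonneg (U 0 - U 1), sq_nonneg (U 0 - U 2), sq_nonneg (U 0 - U 3),
    sq_nonneg (U 1 - U 2), sq_nonneg (U 1 - U 3), sq_nonneg (U 2 - U 3)]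

theorem KQ_ps_geS (k : ℝ) (hk0 : 0 ≤ k) (hk3 : k ≤ 3) (a b : Fin 4 → ℝ) (hZ : 0 < ZQ a b)
    (hU : ∀ i, 0 ≤ uQ a b i) (l1 l2 l3 : ℝ) (h1 : l1 * e1Q (uQ a b) ≤ 1)
    (h2 : l2 * e1Q (uQ a b) ^ 2 ≤ 1) (h3 : l3 * e1Q (uQ a b) ^ 3 ≤ 1) :
    lbS k (uQ a b) l1 l2 l3 ≤ KQ (psK k) a b := by
  rw [KQ_ps_eq k a b hZ]
  have hZ' : 0 < e1Q (uQ a b) := ZQ_eq_e1 a b ▸ hZ
  have hn := nsq_nonneg (uQ a b)
  have he2 := e2Q_nonneg (uQ a b) hU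
  have he3 := e3Q_nonneg (uQ a b) hU
  unfold lbS
  generalize e1Q (uQ a b) = Z at *
  generalize e2Q (uQ a b) = E2 at *
  generalize e3Q (uQ a b) = E3 at *
  have g1 : l1 ≤ 1 / Z := by rw [le_div_iff₀ hZ']; exact h1
  have g2 : l2 ≤ 1 / Z ^ 2 := by rw [le_div_iff₀ (by positivity)]; exact h2
  have g3 : l3 ≤ 1 / Z ^ 3 := by rw [le_div_iff₀ (by positivity)]; exact h3
  have t1 : (3 - k) / 3 * (3 * Z ^ 2 - 8 * E2) * l1 ≤ (3 - k) / 3 * (3 * Z ^ 2 - 8 * E2) * (1 / Z) :=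
    mul_le_mul_of_nonneg_left g1 (mul_nonneg (by linarith) hn)
  have t2 : 16 * E3 * l2 ≤ 16 * E3 * (1 / Z ^ 2) :=
    mul_le_mul_of_nonneg_left g2 (by positivity)
  have t3 : 8 * k / 9 * ((3 * Z ^ 2 - 8 * E2) * E2) * l3
      ≤ 8 * k / 9 * ((3 * Z ^ 2 - 8 * E2) * E2) * (1 / Z ^ 3) :=
    mul_le_mul_of_nonneg_left g3 (mul_nonneg (by positivity) (mul_nonneg hn he2))
  have e : (2 - k) * Z + (16 * k / 3 - 8) * E2 / Z + 16 * E3 / Z ^ 2 - 64 * k / 9 * E2 ^ 2 / Z ^ 3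
      = -Z + (3 - k) / 3 * (3 * Z ^ 2 - 8 * E2) * (1 / Z) + 16 * E3 * (1 / Z ^ 2)
        + 8 * k / 9 * ((3 * Z ^ 2 - 8 * E2) * E2) * (1 / Z ^ 3) := by
    field_simp
    ring
  rw [e]
  linarith

theorem keyC_asm (k k' r : ℝ) (hk0 : 0 ≤ k) (hk3 : k ≤ 3) (hr : r < 1)
    (D : ℕ) (Ld X1s X1t X2s X2t : TL) (s HH sQ H H' N n1 n1' n2 n2' : ℝ) (hN : 0 < N)
    (l1 l2 l3 : ℝ → ℝ) (c1 c2 : (Fin 4 → ℝ) → ℝ)
    (hl1 : ∀ Z, 0 < Z → l1 Z * Z ≤ 1) (hl2 : ∀ Z, 0 < Z → l2 Z * Z ^ 2 ≤ 1)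
    (hl3 : ∀ Z, 0 < Z → l3 Z * Z ^ 3 ≤ 1)
    (hpos : ∀ a b : Fin 4 → ℝ, DT 1 a → DT r b →
      0 ≤ ∑ σ : Equiv.Perm (Fin 4),
          sm D Ld (s * uQ a (fun i => b (σ i)) 0) (s * uQ a (fun i => b (σ i)) 1)
            (s * uQ a (fun i => b (σ i)) 2) (s * uQ a (fun i => b (σ i)) 3) HH
        + dotRR ([X1s, X2s].map (fun l => sm D l (1 + a 0) (1 + a 1) (1 + a 2) (1 + a 3) H))
            ([X1t, X2t].map (fun l => sm D l (sQ * (1 + b 0)) (sQ * (1 + b 1)) (sQ * (1 + b 2))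
              (sQ * (1 + b 3)) H')))
    (hLd : ∀ u : Fin 4 → ℝ, sm D Ld (s * u 0) (s * u 1) (s * u 2) (s * u 3) HH
      = N * lbS k u (l1 (e1Q u)) (l2 (e1Q u)) (l3 (e1Q u)))
    (h1s : ∀ a : Fin 4 → ℝ, sm D X1s (1 + a 0) (1 + a 1) (1 + a 2) (1 + a 3) H = n1 * psK k a)
    (h1t : ∀ b : Fin 4 → ℝ, sm D X1t (sQ * (1 + b 0)) (sQ * (1 + b 1)) (sQ * (1 + b 2))
      (sQ * (1 + b 3)) H' = n1' * c1 b)
    (hn1 : n1 * n1' = -(24 * N))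
    (h2s : ∀ a : Fin 4 → ℝ, sm D X2s (1 + a 0) (1 + a 1) (1 + a 2) (1 + a 3) H = n2 * c2 a)
    (h2t : ∀ b : Fin 4 → ℝ, sm D X2t (sQ * (1 + b 0)) (sQ * (1 + b 1)) (sQ * (1 + b 2))
      (sQ * (1 + b 3)) H' = n2' * psK k' b)
    (hn2 : n2 * n2' = -(24 * N))
    (a b : Fin 4 → ℝ) (ha : DT 1 a) (hb : DT r b) :
    c1 b * psK k a + c2 a * psK k' b ≤ avQ (KQ (psK k) a) b := by
  have hp := hpos a b ha hb
  simp only [List.map_cons, List.map_nil, dotRR, h1s, h1t, h2s, h2t, hLd] at hp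
  have hb1 : ∀ i, -1 < b i := fun i => by
    have := hb.2 i
    linarith
  have hle : ∀ σ : Equiv.Perm (Fin 4),
      lbS k (uQ a (fun i => b (σ i))) (l1 (e1Q (uQ a (fun i => b (σ i)))))
        (l2 (e1Q (uQ a (fun i => b (σ i))))) (l3 (e1Q (uQ a (fun i => b (σ i)))))
        ≤ KQ (psK k) a (fun i => b (σ i)) := by
    intro σ
    have hZ : 0 < ZQ a (fun i => b (σ i)) :=
      ZQ_pos (by norm_num) a _ ha.1 ha.2 (fun i => hb1 (σ i))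
    have hZ' : 0 < e1Q (uQ a (fun i => b (σ i))) := ZQ_eq_e1 a _ ▸ hZ
    refine KQ_ps_geS k hk0 hk3 a _ hZ (fun i => ?_) _ _ _ (hl1 _ hZ') (hl2 _ hZ') (hl3 _ hZ')
    unfold uQ
    have h1 := ha.2 i
    have h2 := hb1 (σ i)
    have : 0 ≤ (1 + a i) * (1 + b (σ i)) := mul_nonneg (by linarith) (by linarith)
    linarith
  have hsum := Finset.sum_le_sum (fun σ (_ : σ ∈ (Finset.univ : Finset (Equiv.Perm (Fin 4)))) => hle σ)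
  rw [← Finset.mul_sum] at hp
  unfold avQ
  have h24 : ((Nat.factorial 4 : ℕ) : ℝ) = 24 := by norm_num [Nat.factorial]
  rw [h24, le_div_iff₀ (by norm_num)]
  set S1 := ∑ σ : Equiv.Perm (Fin 4), lbS k (uQ a (fun i => b (σ i)))
    (l1 (e1Q (uQ a (fun i => b (σ i))))) (l2 (e1Q (uQ a (fun i => b (σ i)))))
    (l3 (e1Q (uQ a (fun i => b (σ i)))))
  set S2 := ∑ σ : Equiv.Perm (Fin 4), KQ (psK k) a (fun i => b (σ i))
  have e1 : n1 * psK k a * (n1' * c1 b) = -(24 * N) * (c1 b * psK k a) := by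
    rw [← hn1]; ring
  have e2 : n2 * c2 a * (n2' * psK k' b) = -(24 * N) * (c2 a * psK k' b) := by
    rw [← hn2]; ring
  rw [e1, e2] at hp
  have h3 : N * ((c1 b * psK k a + c2 a * psK k' b) * 24) ≤ N * S1 := by linarith
  have h4 := le_of_mul_le_mul_left h3 hN
  linarith

end Vale.Agent.P154
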