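import Vale.Agent.P154.R4W.Asm
import Vale.Agent.P154.Q4.Cls5

/-!
# P154 q = 4: closure kernel of the class function `ps5 k0 k5` and generic assembly on `T × T`

`KQ_ps5_eq`: the kernel `KQ (ps5 k0 k5) a b` through `Z = e1Q U`, `e2Q U`, `e3Q U` (`U = uQ a b`).
`lbS5 k0 k5 U l1 l2 l3 l4`: the same expression with `1 / Z ^ j` replaced by `l_j`; all four coefficients are nonnegative.
`keyC5_asm`: positivity of the certificate expression + the identities for the term lists give the closure inequality `PtG.C4`.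
`keyG_asm`: the same for an arbitrary class function and an arbitrary minorant `R` of the kernel.
-/

namespace Vale.Agent.P154

open Finset

theorem ps5_eq (k0 k5 : ℝ) (a : Fin 4 → ℝ) :
    ps5 k0 k5 a = (∑ i, a i ^ 3) / 12 - k0 * alQ a ^ 2 + k5 * (alQ a * ((∑ i, a i ^ 3) / 24)) := by
  unfold ps5 m4
  ring

private lemma asm5_mgQ_eq (a b : Fin 4 → ℝ) (i : Fin 4) :
    mgQ a b i = 4 * uQ a b i / e1Q (uQ a b) - 1 := by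
  rw [← ZQ_eq_e1]
  unfold mgQ uQ
  ring

theorem KQ_ps5_eq (k0 k5 : ℝ) (a b : Fin 4 → ℝ) (hZ : 0 < ZQ a b) :
    KQ (ps5 k0 k5) a b = -e1Q (uQ a b)
      + (3 - k0 + k5) / 3 * (3 * e1Q (uQ a b) ^ 2 - 8 * e2Q (uQ a b)) * (1 / e1Q (uQ a b))
      + 16 * e3Q (uQ a b) * (1 / e1Q (uQ a b) ^ 2)
      + 8 * (k0 - 3 / 2 * k5) / 9 * ((3 * e1Q (uQ a b) ^ 2 - 8 * e2Q (uQ a b)) * e2Q (uQ a b))
        * (1 / e1Q (uQ a b) ^ 3)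
      + 8 * k5 / 3 * ((3 * e1Q (uQ a b) ^ 2 - 8 * e2Q (uQ a b)) * e3Q (uQ a b))
        * (1 / e1Q (uQ a b) ^ 4) := by
  have hZ' : 0 < e1Q (uQ a b) := ZQ_eq_e1 a b ▸ hZ
  unfold KQ
  rw [ps5_eq]
  unfold alQ
  rw [Fin.sum_univ_four, Fin.sum_univ_four]
  simp only [asm5_mgQ_eq]
  rw [ZQ_eq_e1]
  generalize uQ a b = U at *
  unfold e2Q e3Q
  have h1 : e1Q U = U 0 + U 1 + U 2 + U 3 := rfl
  generalize e1Q U = Z at *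
  generalize U 0 = u0 at *
  generalize U 1 = u1 at *
  generalize U 2 = u2 at *
  generalize U 3 = u3 at *
  have hne : Z ≠ 0 := hZ'.ne'
  push_cast
  field_simp
  subst h1
  ring

noncomputable def lbS5 (k0 k5 : ℝ) (U : Fin 4 → ℝ) (l1 l2 l3 l4 : ℝ) : ℝ :=
  -e1Q U + (3 - k0 + k5) / 3 * (3 * e1Q U ^ 2 - 8 * e2Q U) * l1 + 16 * e3Q U * l2
    + 8 * (k0 - 3 / 2 * k5) / 9 * ((3 * e1Q U ^ 2 - 8 * e2Q U) * e2Q U) * l3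
    + 8 * k5 / 3 * ((3 * e1Q U ^ 2 - 8 * e2Q U) * e3Q U) * l4

theorem KQ_ps5_geS (k0 k5 : ℝ) (h5 : 0 ≤ k5) (h05 : 3 / 2 * k5 ≤ k0) (h3 : k0 ≤ 3 + k5)
    (a b : Fin 4 → ℝ) (hZ : 0 < ZQ a b)
    (hU : ∀ i, 0 ≤ uQ a b i) (l1 l2 l3 l4 : ℝ) (h1 : l1 * e1Q (uQ a b) ≤ 1)
    (h2 : l2 * e1Q (uQ a b) ^ 2 ≤ 1) (h3' : l3 * e1Q (uQ a b) ^ 3 ≤ 1)
    (h4 : l4 * e1Q (uQ a b) ^ 4 ≤ 1) :
    lbS5 k0 k5 (uQ a b) l1 l2 l3 l4 ≤ KQ (ps5 k0 k5) a b := by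
  rw [KQ_ps5_eq k0 k5 a b hZ]
  have hZ' : 0 < e1Q (uQ a b) := ZQ_eq_e1 a b ▸ hZ
  have hn := nsq_nonneg (uQ a b)
  have he2 := e2Q_nonneg (uQ a b) hU
  have he3 := e3Q_nonneg (uQ a b) hU
  unfold lbS5
  generalize e1Q (uQ a b) = Z at *
  generalize e2Q (uQ a b) = E2 at *
  generalize e3Q (uQ a b) = E3 at *
  have g1 : l1 ≤ 1 / Z := by rw [le_div_iff₀ hZ']; exact h1
  have g2 : l2 ≤ 1 / Z ^ 2 := by rw [le_div_iff₀ (by positivity)]; exact h2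
  have g3 : l3 ≤ 1 / Z ^ 3 := by rw [le_div_iff₀ (by positivity)]; exact h3'
  have g4 : l4 ≤ 1 / Z ^ 4 := by rw [le_div_iff₀ (by positivity)]; exact h4
  have t1 : (3 - k0 + k5) / 3 * (3 * Z ^ 2 - 8 * E2) * l1
      ≤ (3 - k0 + k5) / 3 * (3 * Z ^ 2 - 8 * E2) * (1 / Z) :=
    mul_le_mul_of_nonneg_left g1 (mul_nonneg (by linarith) hn)
  have t2 : 16 * E3 * l2 ≤ 16 * E3 * (1 / Z ^ 2) :=
    mul_le_mul_of_nonneg_left g2 (by positivity)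
  have t3 : 8 * (k0 - 3 / 2 * k5) / 9 * ((3 * Z ^ 2 - 8 * E2) * E2) * l3
      ≤ 8 * (k0 - 3 / 2 * k5) / 9 * ((3 * Z ^ 2 - 8 * E2) * E2) * (1 / Z ^ 3) :=
    mul_le_mul_of_nonneg_left g3 (mul_nonneg (by linarith) (mul_nonneg hn he2))
  have t4 : 8 * k5 / 3 * ((3 * Z ^ 2 - 8 * E2) * E3) * l4
      ≤ 8 * k5 / 3 * ((3 * Z ^ 2 - 8 * E2) * E3) * (1 / Z ^ 4) :=
    mul_le_mul_of_nonneg_left g4 (mul_nonneg (by linarith) (mul_nonneg hn he3))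
  linarith

theorem e1Q_le_four (a b : Fin 4 → ℝ) (ha : DT 1 a) (hb : DT 1 b) : e1Q (uQ a b) ≤ 4 := by
  obtain ⟨ha0, ha1⟩ := ha
  obtain ⟨hb0, hb1⟩ := hb
  rw [Fin.sum_univ_four] at ha0 hb0
  unfold e1Q uQ
  have a0 := ha1 0
  have a1 := ha1 1
  have a2 := ha1 2
  have a3 := ha1 3
  have b0 := hb1 0
  have b1 := hb1 1
  have b2 := hb1 2
  have b3 := hb1 3
  have p0 : 0 ≤ (1 + a 0) * (3 - b 0) := mul_nonneg (by linarith) (by linarith)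
  have p1 : 0 ≤ (1 + a 1) * (3 - b 1) := mul_nonneg (by linarith) (by linarith)
  have p2 : 0 ≤ (1 + a 2) * (3 - b 2) := mul_nonneg (by linarith) (by linarith)
  have p3 : 0 ≤ (1 + a 3) * (3 - b 3) := mul_nonneg (by linarith) (by linarith)
  nlinarith [p0, p1, p2, p3]

theorem dt_permG (r : ℝ) (b : Fin 4 → ℝ) (hb : DT r b) (σ : Equiv.Perm (Fin 4)) :
    DT r (fun i => b (σ i)) :=
  ⟨by rw [Equiv.sum_comp σ b]; exact hb.1, fun i => hb.2 (σ i)⟩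

/-- generic assembly: arbitrary class function `ps`, arbitrary minorant `R` of the kernel as a function of `uQ a b` -/
theorem keyG_asm (ps : (Fin 4 → ℝ) → ℝ) (R : (Fin 4 → ℝ) → ℝ)
    (D : ℕ) (Ld X1s X1t X2s X2t : TL) (s HH sQ H H' N n1 n1' n2 n2' : ℝ) (hN : 0 < N)
    (c1 c2 : (Fin 4 → ℝ) → ℝ)
    (hR : ∀ a b : Fin 4 → ℝ, DT 1 a → DT 1 b → (∀ i, -1 < b i) → R (uQ a b) ≤ KQ ps a b)
    (hpos : ∀ a b : Fin 4 → ℝ, DT 1 a → DT 1 b →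
      0 ≤ ∑ σ : Equiv.Perm (Fin 4),
          sm D Ld (s * uQ a (fun i => b (σ i)) 0) (s * uQ a (fun i => b (σ i)) 1)
            (s * uQ a (fun i => b (σ i)) 2) (s * uQ a (fun i => b (σ i)) 3) HH
        + dotRR ([X1s, X2s].map (fun l => sm D l (1 + a 0) (1 + a 1) (1 + a 2) (1 + a 3) H))
            ([X1t, X2t].map (fun l => sm D l (sQ * (1 + b 0)) (sQ * (1 + b 1)) (sQ * (1 + b 2))
              (sQ * (1 + b 3)) H')))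
    (hLd : ∀ u : Fin 4 → ℝ, sm D Ld (s * u 0) (s * u 1) (s * u 2) (s * u 3) HH = N * R u)
    (h1s : ∀ a : Fin 4 → ℝ, sm D X1s (1 + a 0) (1 + a 1) (1 + a 2) (1 + a 3) H = n1 * ps a)
    (h1t : ∀ b : Fin 4 → ℝ, sm D X1t (sQ * (1 + b 0)) (sQ * (1 + b 1)) (sQ * (1 + b 2))
      (sQ * (1 + b 3)) H' = n1' * c1 b)
    (hn1 : n1 * n1' = -(24 * N))
    (h2s : ∀ a : Fin 4 → ℝ, sm D X2s (1 + a 0) (1 + a 1) (1 + a 2) (1 + a 3) H = n2 * c2 a)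
    (h2t : ∀ b : Fin 4 → ℝ, sm D X2t (sQ * (1 + b 0)) (sQ * (1 + b 1)) (sQ * (1 + b 2))
      (sQ * (1 + b 3)) H' = n2' * ps b)
    (hn2 : n2 * n2' = -(24 * N))
    (a b : Fin 4 → ℝ) (ha : DT 1 a) (hb : DT 1 b) (hb1 : ∀ i, -1 < b i) :
    c1 b * ps a + c2 a * ps b ≤ avQ (KQ ps a) b := by
  have hp := hpos a b ha hb
  simp only [List.map_cons, List.map_nil, dotRR, h1s, h1t, h2s, h2t, hLd] at hp
  have hle : ∀ σ : Equiv.Perm (Fin 4),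
      R (uQ a (fun i => b (σ i))) ≤ KQ ps a (fun i => b (σ i)) :=
    fun σ => hR a _ ha (dt_permG 1 b hb σ) (fun i => hb1 (σ i))
  have hsum := Finset.sum_le_sum (fun σ (_ : σ ∈ (Finset.univ : Finset (Equiv.Perm (Fin 4)))) => hle σ)
  rw [← Finset.mul_sum] at hp
  unfold avQ
  have h24 : ((Nat.factorial 4 : ℕ) : ℝ) = 24 := by norm_num [Nat.factorial]
  rw [h24, le_div_iff₀ (by norm_num)]
  set S1 := ∑ σ : Equiv.Perm (Fin 4), R (uQ a (fun i => b (σ i)))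
  set S2 := ∑ σ : Equiv.Perm (Fin 4), KQ ps a (fun i => b (σ i))
  have e1 : n1 * ps a * (n1' * c1 b) = -(24 * N) * (c1 b * ps a) := by
    rw [← hn1]; ring
  have e2 : n2 * c2 a * (n2' * ps b) = -(24 * N) * (c2 a * ps b) := by
    rw [← hn2]; ring
  rw [e1, e2] at hp
  have h3 : N * ((c1 b * ps a + c2 a * ps b) * 24) ≤ N * S1 := by linarith
  have h4 := le_of_mul_le_mul_left h3 hN
  linarith

/-- the termwise minorant of the kernel of `ps5`, with minorants `l_j Z * Z ^ j ≤ 1` required on `0 < Z ≤ 4` only -/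
theorem lbS5_le (k0 k5 : ℝ) (h5 : 0 ≤ k5) (h05 : 3 / 2 * k5 ≤ k0) (h3 : k0 ≤ 3 + k5)
    (l1 l2 l3 l4 : ℝ → ℝ)
    (hl1 : ∀ Z, 0 < Z → Z ≤ 4 → l1 Z * Z ≤ 1) (hl2 : ∀ Z, 0 < Z → Z ≤ 4 → l2 Z * Z ^ 2 ≤ 1)
    (hl3 : ∀ Z, 0 < Z → Z ≤ 4 → l3 Z * Z ^ 3 ≤ 1) (hl4 : ∀ Z, 0 < Z → Z ≤ 4 → l4 Z * Z ^ 4 ≤ 1)
    (a b : Fin 4 → ℝ) (ha : DT 1 a) (hb : DT 1 b) (hb1 : ∀ i, -1 < b i) :
    lbS5 k0 k5 (uQ a b) (l1 (e1Q (uQ a b))) (l2 (e1Q (uQ a b))) (l3 (e1Q (uQ a b)))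
      (l4 (e1Q (uQ a b))) ≤ KQ (ps5 k0 k5) a b := by
  have hZ : 0 < ZQ a b := ZQ_pos (by norm_num) a _ ha.1 ha.2 hb1
  have hZ' : 0 < e1Q (uQ a b) := ZQ_eq_e1 a _ ▸ hZ
  have hZ4 := e1Q_le_four a b ha hb
  refine KQ_ps5_geS k0 k5 h5 h05 h3 a b hZ (fun i => ?_) _ _ _ _ (hl1 _ hZ' hZ4) (hl2 _ hZ' hZ4)
    (hl3 _ hZ' hZ4) (hl4 _ hZ' hZ4)
  unfold uQ
  have h1 := ha.2 i
  have h2 := hb1 i
  have : 0 ≤ (1 + a i) * (1 + b i) := mul_nonneg (by linarith) (by linarith)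
  linarith

end Vale.Agent.P154
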