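import Vale.Agent.P154.R4K.MasterK
import Vale.Agent.P154.R4W.C35Data

/-! # P154 q = 4: the packed coefficient checks for the closure certificate `C35` -/

namespace Vale.Agent.P154

open Vale.Agent.Util.Polya

theorem goodC35 : good 11 11 152 (certE 11 0 1 1 6 LdC35 [X1sC35, X2sC35] [X1tC35, X2tC35]) = true := by
  decide +kernel

theorem bndC35 : 2 * bnd (certE 11 0 1 1 6 LdC35 [X1sC35, X2sC35] [X1tC35, X2tC35]) < 2 ^ 152 := by
  decide +kernel

theorem checkC35 : check 152 12 11 (certE 11 0 1 1 6 LdC35 [X1sC35, X2sC35] [X1tC35, X2tC35]) 0 (12 * 12) = true := by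
  decide +kernel

theorem goodC35A : good 11 11 95 (certE 11 0 1 1 6 [] [X2sC35] [[(1, 0, 0, 0, 0)]]) = true := by
  decide +kernel

theorem bndC35A : 2 * bnd (certE 11 0 1 1 6 [] [X2sC35] [[(1, 0, 0, 0, 0)]]) < 2 ^ 95 := by
  decide +kernel

theorem checkC35A : check 95 12 11 (certE 11 0 1 1 6 [] [X2sC35] [[(1, 0, 0, 0, 0)]]) 0 (12 * 12) = true := by
  decide +kernel

theorem goodC35B : good 11 11 143 (certE 11 0 1 1 6 [] [[(1, 0, 0, 0, 0)]] [X1tC35]) = true := by
  decide +kernel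

theorem bndC35B : 2 * bnd (certE 11 0 1 1 6 [] [[(1, 0, 0, 0, 0)]] [X1tC35]) < 2 ^ 143 := by
  decide +kernel

theorem checkC35B : check 143 12 11 (certE 11 0 1 1 6 [] [[(1, 0, 0, 0, 0)]] [X1tC35]) 0 (12 * 12) = true := by
  decide +kernel

end Vale.Agent.P154
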