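import Vale.Agent.P154.R4W.LinkTools
import Vale.Agent.P154.R4W.C35Data

/-! # P154 q = 4: the term lists of the certificate `C35` are the closed forms -/

namespace Vale.Agent.P154

open Vale.Agent.Util.Polya

def L1cC35 : List ℤ := [36, -36, 36, -36, 32, -20, 7, -1]

def L2cC35 : List ℤ := [4, -8, 12, -16, 14, -5]

def L3cC35 : List ℤ := [12301875, -36905625, 72367150, -105784190, 104884576, -62922560, 20174848, -2633216]

theorem pitLdC35 : pit4 152 13 (smE 11 LdC35 (.mul (.c 120) (.v 0)) (.mul (.c 120) (.v 1)) (.mul (.c 120) (.v 2))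
    (.mul (.c 120) (.v 3)) (.c 48)) (lbSE (-17251919966013638049792000000000000000) 199674999606639329280000000000000000 69007679864054552199168000000000000000 2181482086847112806400000000000 L1cC35 L2cC35 L3cC35) = true := by
  decide +kernel

theorem pitX1sC35 : pit4 39 12 (smE 11 X1sC35 (.mul (.c 1) (.add (.c 1) (.v 0))) (.mul (.c 1) (.add (.c 1) (.v 1))) (.mul (.c 1) (.add (.c 1) (.v 2))) (.mul (.c 1) (.add (.c 1) (.v 3)))
    (.c 4)) (mulE (0) (0) (-301989888) (44040192) (0) (0)) = true := by
  decide +kernel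

theorem pitX1tC35 : pit4 107 12 (smE 11 X1tC35 (.mul (.c 30) (.add (.c 1) (.v 0))) (.mul (.c 30) (.add (.c 1) (.v 1))) (.mul (.c 30) (.add (.c 1) (.v 2))) (.mul (.c 30) (.add (.c 1) (.v 3)))
    (.c 12)) (mulE (114254951251968000000000000000) (-61412036297932800000000000000) (16186118094028800000000000000) (-20351663191756800000000000000) (41417419828838400000000000000) (0)) = true := by
  decide +kernel

theorem pitX2sC35 : pit4 41 12 (smE 11 X2sC35 (.mul (.c 1) (.add (.c 1) (.v 0))) (.mul (.c 1) (.add (.c 1) (.v 1))) (.mul (.c 1) (.add (.c 1) (.v 2))) (.mul (.c 1) (.add (.c 1) (.v 3)))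
    (.c 4)) (mulE (6039797760) (-981467136) (-1384120320) (-179306496) (943718400) (0)) = true := by
  decide +kernel

theorem pitX2tC35 : pit4 103 12 (smE 11 X2tC35 (.mul (.c 30) (.add (.c 1) (.v 0))) (.mul (.c 30) (.add (.c 1) (.v 1))) (.mul (.c 30) (.add (.c 1) (.v 2))) (.mul (.c 30) (.add (.c 1) (.v 3)))
    (.c 12)) (mulE (0) (0) (-5712747562598400000000000000) (1388515032576000000000000000) (0) (0)) = true := by
  decide +kernel

end Vale.Agent.P154
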