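import Vale.Agent.P154.R4.KForm
import Vale.Agent.P154.R4.Poly

/-!
# P154 q = 4: polynomial bounds of the two kernels

`lbC k a U l1 l2 l3` is the closure kernel `KQ (psK k) a b` (`U = uQ a b`) with `1 / Z ^ j` replaced by `l_j`, written so that all three
coefficients are nonnegative (`W2 = (1/4) ∑ (4 U_i - Z (1 + a_i))^2`, `e3`, `(3 Z^2 - 8 e2) e2`).
The lists `L1c, L2c, L3c, LXc, L3d` are integer multiples of polynomials in `z = Z - 1` below `1 / Z ^ j`.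
-/

namespace Vale.Agent.P154

open Finset

noncomputable def muQ (a U : Fin 4 → ℝ) : ℝ := ∑ i, (1 + a i) * U i

noncomputable def saQ (a : Fin 4 → ℝ) : ℝ := ∑ i, (1 + a i) ^ 2

noncomputable def lbC (k : ℝ) (a U : Fin 4 → ℝ) (l1 l2 l3 : ℝ) : ℝ :=
  -e1Q U + (3 - k) / 3 * (2 * muQ a U - e1Q U - e1Q U * saQ a / 4)
    + (3 - k) / 3 * (4 * (e1Q U ^ 2 - 2 * e2Q U) - 2 * e1Q U * muQ a U + e1Q U ^ 2 * saQ a / 4) * l1
    + 16 * e3Q U * l2 + 8 * k / 9 * ((3 * e1Q U ^ 2 - 8 * e2Q U) * e2Q U) * l3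

theorem KQ_ps_ge (k : ℝ) (hk0 : 0 ≤ k) (hk3 : k ≤ 3) (a b : Fin 4 → ℝ) (hZ : 0 < ZQ a b)
    (hU : ∀ i, 0 ≤ uQ a b i) (l1 l2 l3 : ℝ) (h1 : l1 * e1Q (uQ a b) ≤ 1)
    (h2 : l2 * e1Q (uQ a b) ^ 2 ≤ 1) (h3 : l3 * e1Q (uQ a b) ^ 3 ≤ 1) :
    lbC k a (uQ a b) l1 l2 l3 ≤ KQ (psK k) a b := by
  rw [KQ_ps_eq k a b hZ]
  have hZ' : 0 < e1Q (uQ a b) := ZQ_eq_e1 a b ▸ hZ
  have he2 := e2Q_nonneg (uQ a b) hU
  have he3 := e3Q_nonneg (uQ a b) hU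
  clear hZ
  generalize uQ a b = U at *
  have hW2 : 0 ≤ 4 * (e1Q U ^ 2 - 2 * e2Q U) - 2 * e1Q U * muQ a U + e1Q U ^ 2 * saQ a / 4 := by
    have e : 4 * (e1Q U ^ 2 - 2 * e2Q U) - 2 * e1Q U * muQ a U + e1Q U ^ 2 * saQ a / 4
        = 1 / 4 * ((4 * U 0 - e1Q U * (1 + a 0)) ^ 2 + (4 * U 1 - e1Q U * (1 + a 1)) ^ 2
          + (4 * U 2 - e1Q U * (1 + a 2)) ^ 2 + (4 * U 3 - e1Q U * (1 + a 3)) ^ 2) := by
      unfold muQ saQ e2Q e1Q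
      rw [Fin.sum_univ_four, Fin.sum_univ_four]
      ring
    rw [e]
    positivity
  have hD : 0 ≤ 3 * e1Q U ^ 2 - 8 * e2Q U := by
    have e : 3 * e1Q U ^ 2 - 8 * e2Q U
        = (U 0 - U 1) ^ 2 + (U 0 - U 2) ^ 2 + (U 0 - U 3) ^ 2 + (U 1 - U 2) ^ 2
          + (U 1 - U 3) ^ 2 + (U 2 - U 3) ^ 2 := by
      unfold e2Q e1Q
      ring
    rw [e]
    positivity
  unfold lbC
  generalize muQ a U = mu at *
  generalize saQ a = sa at *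
  generalize e3Q U = e3 at *
  generalize e2Q U = e2 at *
  generalize e1Q U = Z at *
  have g1 : 0 ≤ 1 / Z - l1 := by
    have : l1 ≤ 1 / Z := by
      rw [le_div_iff₀ hZ']
      exact h1
    linarith
  have g2 : 0 ≤ 1 / Z ^ 2 - l2 := by
    have : l2 ≤ 1 / Z ^ 2 := by
      rw [le_div_iff₀ (by positivity)]
      exact h2
    linarith
  have g3 : 0 ≤ 1 / Z ^ 3 - l3 := by
    have : l3 ≤ 1 / Z ^ 3 := by
      rw [le_div_iff₀ (by positivity)]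
      exact h3
    linarith
  have key : (2 - k) * Z + (16 * k / 3 - 8) * e2 / Z + 16 * e3 / Z ^ 2 - 64 * k / 9 * e2 ^ 2 / Z ^ 3
      - (-Z + (3 - k) / 3 * (2 * mu - Z - Z * sa / 4)
        + (3 - k) / 3 * (4 * (Z ^ 2 - 2 * e2) - 2 * Z * mu + Z ^ 2 * sa / 4) * l1
        + 16 * e3 * l2 + 8 * k / 9 * ((3 * Z ^ 2 - 8 * e2) * e2) * l3)
      = (3 - k) / 3 * (4 * (Z ^ 2 - 2 * e2) - 2 * Z * mu + Z ^ 2 * sa / 4) * (1 / Z - l1)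
        + 16 * e3 * (1 / Z ^ 2 - l2)
        + 8 * k / 9 * ((3 * Z ^ 2 - 8 * e2) * e2) * (1 / Z ^ 3 - l3) := by
    have hne : Z ≠ 0 := hZ'.ne'
    field_simp
    ring
  have t1 : 0 ≤ (3 - k) / 3 * (4 * (Z ^ 2 - 2 * e2) - 2 * Z * mu + Z ^ 2 * sa / 4) * (1 / Z - l1) :=
    mul_nonneg (mul_nonneg (by linarith) hW2) g1
  have t2 : 0 ≤ 16 * e3 * (1 / Z ^ 2 - l2) := mul_nonneg (by linarith) g2
  have t3 : 0 ≤ 8 * k / 9 * ((3 * Z ^ 2 - 8 * e2) * e2) * (1 / Z ^ 3 - l3) :=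
    mul_nonneg (mul_nonneg (by linarith) (mul_nonneg hD he2)) g3
  linarith

theorem KQ_al_le (a b : Fin 4 → ℝ) (hZ : 0 < ZQ a b) (hU : ∀ i, 0 ≤ uQ a b i) (l1 : ℝ)
    (h1 : l1 * e1Q (uQ a b) ≤ 1) :
    KQ alQ a b ≤ e1Q (uQ a b) - 8 / 3 * e2Q (uQ a b) * l1 := by
  rw [KQ_al_eq a b hZ]
  have hZ' : 0 < e1Q (uQ a b) := ZQ_eq_e1 a b ▸ hZ
  have he2 := e2Q_nonneg (uQ a b) hU
  generalize e2Q (uQ a b) = e2 at *
  generalize e1Q (uQ a b) = Z at *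
  have g1 : l1 ≤ 1 / Z := by
    rw [le_div_iff₀ hZ']
    exact h1
  have h : e2 * l1 ≤ e2 * (1 / Z) := mul_le_mul_of_nonneg_left g1 he2
  have e : 8 / 3 * e2 / Z = 8 / 3 * (e2 * (1 / Z)) := by ring
  rw [e]
  linarith

def L1c : List ℤ := [4, -4, 3, -1]
def L2c : List ℤ := [4, -8, 12, -16, 14, -5]
def L3c : List ℤ :=
  [12301875, -36905625, 72367150, -105784190, 104884576, -62922560, 20174848, -2633216]
def LXc : List ℤ := [4, -4, 4, -4, 3, -1]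
def L3d : List ℤ := [2560000, -7680000, 13441677, -13945423, 7465560, -1560300]

/-- `4 - Z * L1c = z^2 (z-1)^2` -/
theorem L1c_le (Z : ℝ) : ev1 (Z - 1) L1c / 4 * Z ≤ 1 := by
  have e : ev1 (Z - 1) L1c / 4 * Z = 1 - ((Z - 1) * (Z - 1 - 1)) ^ 2 / 4 := by
    simp only [L1c, ev1, evL]
    push_cast
    ring
  rw [e]
  have := sq_nonneg ((Z - 1) * (Z - 1 - 1))
  linarith

/-- `4 - Z^2 * L2c = z^4 (z-1)^2 (6 + 5 z)` -/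
theorem L2c_le (Z : ℝ) (hZ : 0 < Z) : ev1 (Z - 1) L2c / 4 * Z ^ 2 ≤ 1 := by
  have e : ev1 (Z - 1) L2c / 4 * Z ^ 2
      = 1 - ((Z - 1) ^ 2 * (Z - 1 - 1)) ^ 2 * (6 + 5 * (Z - 1)) / 4 := by
    simp only [L2c, ev1, evL]
    push_cast
    ring
  rw [e]
  have h : 0 ≤ ((Z - 1) ^ 2 * (Z - 1 - 1)) ^ 2 * (6 + 5 * (Z - 1)) :=
    mul_nonneg (sq_nonneg _) (by linarith)
  linarith

/-- `12301875 - Z^3 * L3c = z^2 (z-1/4)^2 (z-5/4)^2 (z-2)^2 (3696896 + 6157312 z + 2633216 z^2)` -/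
theorem L3c_le (Z : ℝ) : ev1 (Z - 1) L3c / 12301875 * Z ^ 3 ≤ 1 := by
  have e : ev1 (Z - 1) L3c / 12301875 * Z ^ 3
      = 1 - ((Z - 1) * (Z - 1 - 1 / 4) * (Z - 1 - 5 / 4) * (Z - 1 - 2)) ^ 2
        * (3696896 + 6157312 * (Z - 1) + 2633216 * (Z - 1) ^ 2) / 12301875 := by
    simp only [L3c, ev1, evL]
    push_cast
    ring
  rw [e]
  have hq : 0 ≤ 3696896 + 6157312 * (Z - 1) + 2633216 * (Z - 1) ^ 2 := by
    nlinarith [sq_nonneg (2 * 2633216 * (Z - 1) + 6157312)]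
  have h : 0 ≤ ((Z - 1) * (Z - 1 - 1 / 4) * (Z - 1 - 5 / 4) * (Z - 1 - 2)) ^ 2
      * (3696896 + 6157312 * (Z - 1) + 2633216 * (Z - 1) ^ 2) := mul_nonneg (sq_nonneg _) hq
  linarith

/-- `4 - Z * LXc = z^4 (z-1)^2` -/
theorem LXc_le (Z : ℝ) : ev1 (Z - 1) LXc / 4 * Z ≤ 1 := by
  have e : ev1 (Z - 1) LXc / 4 * Z = 1 - ((Z - 1) ^ 2 * (Z - 1 - 1)) ^ 2 / 4 := by
    simp only [LXc, ev1, evL]
    push_cast
    ring
  rw [e]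
  have := sq_nonneg ((Z - 1) ^ 2 * (Z - 1 - 1))
  linarith

/-- Hermite nodes `0, 3/5, 3/2` (all double): `2560000 - Z^3 * L3d = z^2 (z-3/5)^2 (z-3/2)^2 * (quadratic, positive)` -/
theorem L3d_le (Z : ℝ) : ev1 (Z - 1) L3d / 2560000 * Z ^ 3 ≤ 1 := by
  have e : ev1 (Z - 1) L3d / 2560000 * Z ^ 3
      = 1 - ((Z - 1) * (Z - 1 - 3 / 5) * (Z - 1 - 3 / 2)) ^ 2
        * (2368300 + 3768600 * (Z - 1) + 1560300 * (Z - 1) ^ 2) / 2560000 := by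
    simp only [L3d, ev1, evL]
    push_cast
    ring
  rw [e]
  have hq : 0 ≤ 2368300 + 3768600 * (Z - 1) + 1560300 * (Z - 1) ^ 2 := by
    nlinarith [sq_nonneg (2 * 1560300 * (Z - 1) + 3768600)]
  have h : 0 ≤ ((Z - 1) * (Z - 1 - 3 / 5) * (Z - 1 - 3 / 2)) ^ 2
      * (2368300 + 3768600 * (Z - 1) + 1560300 * (Z - 1) ^ 2) := mul_nonneg (sq_nonneg _) hq
  linarith

end Vale.Agent.P154
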