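import Vale.Agent.P154.R4W.C35Chk
import Vale.Agent.P154.R4W.C35Link
import Vale.Agent.P154.R4W.MinC
/-! # P154 q = 4: the closure inequality from the certificate `C35` -/

namespace Vale.Agent.P154

open Finset Vale.Agent.Util.Polya

noncomputable def c1C35 : (Fin 4 → ℝ) → ℝ := mulQ 1 (-43 / 80) (17 / 120) (-57 / 320) (29 / 80) 0

noncomputable def c2C35 : (Fin 4 → ℝ) → ℝ := mulQ 1 (-13 / 80) (-11 / 48) (-19 / 640) (5 / 32) 0

theorem l1C35_le (Z : ℝ) (_ : 0 < Z) : ev1 (Z - 1) L1cC35 / 36 * Z ≤ 1 := by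
  have e : ev1 (Z - 1) L1cC35 / 36 * Z = 1 - ((Z - 1) ^ 2 * (Z - 2) * (Z - 3)) ^ 2 / 36 := by
    simp only [L1cC35, ev1, evL]
    push_cast
    ring
  rw [e]
  have := sq_nonneg ((Z - 1) ^ 2 * (Z - 2) * (Z - 3))
  linarith

theorem l2C35_le (Z : ℝ) (hZ : 0 < Z) : ev1 (Z - 1) L2cC35 / 4 * Z ^ 2 ≤ 1 := L2c_le Z hZ

theorem l3C35_le (Z : ℝ) (_ : 0 < Z) : ev1 (Z - 1) L3cC35 / 12301875 * Z ^ 3 ≤ 1 := L3c_le Z

theorem h1sC35 (a : Fin 4 → ℝ) :
    sm 11 X1sC35 (1 + a 0) (1 + a 1) (1 + a 2) (1 + a 3) 4 = (-3623878656) * psK (7 / 4) a := by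
  have h := sm_eq_mulQ 39 12 11 X1sC35 1 4 (0) (0) (-301989888) (44040192) (0) (0) pitX1sC35 a
  push_cast at h
  simp only [one_mul] at h
  rw [h, psK_eq_mulQ]
  unfold mulQ
  ring

theorem h2sC35 (a : Fin 4 → ℝ) :
    sm 11 X2sC35 (1 + a 0) (1 + a 1) (1 + a 2) (1 + a 3) 4 = 6039797760 * c2C35 a := by
  have h := sm_eq_mulQ 41 12 11 X2sC35 1 4 (6039797760) (-981467136) (-1384120320) (-179306496) (943718400) (0) pitX2sC35 a
  push_cast at h
  simp only [one_mul] at h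
  rw [h]
  unfold c2C35 mulQ
  ring

theorem h1tC35 (b : Fin 4 → ℝ) :
    sm 11 X1tC35 (30 * (1 + b 0)) (30 * (1 + b 1)) (30 * (1 + b 2)) (30 * (1 + b 3)) 12
      = 114254951251968000000000000000 * c1C35 b := by
  have h := sm_eq_mulQ 107 12 11 X1tC35 30 12 (114254951251968000000000000000) (-61412036297932800000000000000) (16186118094028800000000000000) (-20351663191756800000000000000) (41417419828838400000000000000) (0) pitX1tC35 b
  push_cast at h
  rw [h]
  unfold c1C35 mulQ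
  ring

theorem h2tC35 (b : Fin 4 → ℝ) :
    sm 11 X2tC35 (30 * (1 + b 0)) (30 * (1 + b 1)) (30 * (1 + b 2)) (30 * (1 + b 3)) 12
      = (-68552970751180800000000000000) * psK (35 / 12) b := by
  have h := sm_eq_mulQ 103 12 11 X2tC35 30 12 (0) (0) (-5712747562598400000000000000) (1388515032576000000000000000) (0) (0) pitX2tC35 b
  push_cast at h
  rw [h, psK_eq_mulQ]
  unfold mulQ
  ring

theorem hLdC35 (u : Fin 4 → ℝ) :
    sm 11 LdC35 (120 * u 0) (120 * u 1) (120 * u 2) (120 * u 3) 48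
      = 17251919966013638049792000000000000000 * lbS (7 / 4) u (ev1 (e1Q u - 1) L1cC35 / 36) (ev1 (e1Q u - 1) L2cC35 / 4)
        (ev1 (e1Q u - 1) L3cC35 / 12301875) := by
  have h := sm_eq_lbSE 152 13 11 LdC35 120 48 (-17251919966013638049792000000000000000) 199674999606639329280000000000000000 69007679864054552199168000000000000000 2181482086847112806400000000000 L1cC35 L2cC35 L3cC35 pitLdC35 u
  push_cast at h
  rw [h]
  unfold lbS
  ring

theorem keyCC35 (a b : Fin 4 → ℝ) (ha : DT 1 a) (hb : DT (3 / 5) b) :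
    c1C35 b * psK (7 / 4) a + c2C35 a * psK (35 / 12) b ≤ avQ (KQ (psK (7 / 4)) a) b :=
  keyC_asm (7 / 4) (35 / 12) (3 / 5) (by norm_num) (by norm_num) (by norm_num) 11 LdC35 X1sC35 X1tC35 X2sC35 X2tC35
    120 48 30 4 12 17251919966013638049792000000000000000 (-3623878656) 114254951251968000000000000000 6039797760 (-68552970751180800000000000000) (by norm_num)
    (fun Z => ev1 (Z - 1) L1cC35 / 36) (fun Z => ev1 (Z - 1) L2cC35 / 4) (fun Z => ev1 (Z - 1) L3cC35 / 12301875)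
    c1C35 c2C35 (fun Z hZ => l1C35_le Z hZ) (fun Z hZ => l2C35_le Z hZ) (fun Z hZ => l3C35_le Z hZ)
    (fun a b ha hb => masterK 152 12 11 LdC35 [X1sC35, X2sC35] [X1tC35, X2tC35] (by norm_num) (by norm_num)
      goodC35 bndC35 checkC35 a b ha.1 ha.2 hb.1 hb.2)
    hLdC35 h1sC35 h1tC35 (by norm_num) h2sC35 h2tC35 (by norm_num) a b ha hb

private theorem pm4_zero (x y z w : ℝ) : pm4 x y z w 0 0 0 0 = 24 := by
  unfold pm4 pm3 pm2
  norm_num

theorem c2C35_nonneg (a : Fin 4 → ℝ) (ha : DT 1 a) : 0 ≤ c2C35 a := by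
  have h := masterK 95 12 11 [] [X2sC35] [[(1, 0, 0, 0, 0)]] (by norm_num) (by norm_num)
    goodC35A bndC35A checkC35A a (fun _ => 0) ha.1 ha.2 (by simp) (fun i => by norm_num)
  simp only [List.map_cons, List.map_nil, dotRR, h2sC35] at h
  simp only [sm, pm4_zero, Finset.sum_const_zero] at h
  have h2 : (0 : ℝ) ≤ (6039797760 * (24 * 12 ^ 11)) * c2C35 a := by
    norm_num at h ⊢
    linarith
  exact (mul_nonneg_iff_of_pos_left (by norm_num)).1 h2

theorem c1C35_nonneg (b : Fin 4 → ℝ) (hb : DT (3 / 5) b) : 0 ≤ c1C35 b := by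
  have h := masterK 143 12 11 [] [[(1, 0, 0, 0, 0)]] [X1tC35] (by norm_num) (by norm_num)
    goodC35B bndC35B checkC35B (fun _ => 0) b (by simp) (fun i => by norm_num) hb.1 hb.2
  simp only [List.map_cons, List.map_nil, dotRR, h1tC35] at h
  simp only [sm, pm4_zero, Finset.sum_const_zero] at h
  have h2 : (0 : ℝ) ≤ (114254951251968000000000000000 * (24 * 4 ^ 11)) * c1C35 b := by
    norm_num at h ⊢
    linarith
  exact (mul_nonneg_iff_of_pos_left (by norm_num)).1 h2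

end Vale.Agent.P154
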