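import Vale.Agent.P154.R4K.MasterK
import Vale.Agent.P154.R4W.C57Data
import Vale.Agent.P154.R4W.C57Chk0

/-! # P154 q = 4: packed coefficient check for the closure certificate `C57`, rows 7 to 17 -/

namespace Vale.Agent.P154

open Vale.Agent.Util.Polya

theorem checkC57_1 : check 188 14 13 (certE 13 0 1 1 10 LdC57 [X1sC57, X2sC57] [X1tC57, X2tC57]) 7 11 = true := by
  decide +kernel

end Vale.Agent.P154
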