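import Vale.Agent.P154.R4K.MasterK
import Vale.Agent.P154.R4W.C57Data
import Vale.Agent.P154.R4W.C57Chk0
import Vale.Agent.P154.R4W.C57Chk1
import Vale.Agent.P154.R4W.C57Chk2
import Vale.Agent.P154.R4W.C57Chk3
import Vale.Agent.P154.R4W.C57Chk4
import Vale.Agent.P154.R4W.C57Chk5
import Vale.Agent.P154.R4W.C57Chk6
import Vale.Agent.P154.R4W.C57Chk7

/-! # P154 q = 4: the packed coefficient checks for the closure certificate `C57` -/

namespace Vale.Agent.P154

open Vale.Agent.Util.Polya

theorem goodC57 : good 13 13 188 (certE 13 0 1 1 10 LdC57 [X1sC57, X2sC57] [X1tC57, X2tC57]) = true := by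
  decide +kernel

theorem bndC57 : 2 * bnd (certE 13 0 1 1 10 LdC57 [X1sC57, X2sC57] [X1tC57, X2tC57]) < 2 ^ 188 := by
  decide +kernel

theorem check_glue {w S D : ℕ} {L : List (PE × PE)} (r0 n m r1 t : ℕ) (e1 : r0 + n = r1) (e2 : n + m = t)
    (h1 : check w S D L r0 n = true) (h2 : check w S D L r1 m = true) : check w S D L r0 t = true := by
  subst e1
  subst e2
  exact check_append h1 h2

theorem checkC57 : check 188 14 13 (certE 13 0 1 1 10 LdC57 [X1sC57, X2sC57] [X1tC57, X2tC57]) 0 (14 * 14) = true := by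
  have h0 := checkC57_0
  have h1 := check_glue 0 7 11 7 18 (by norm_num) (by norm_num) h0 checkC57_1
  have h2 := check_glue 0 18 13 18 31 (by norm_num) (by norm_num) h1 checkC57_2
  have h3 := check_glue 0 31 14 31 45 (by norm_num) (by norm_num) h2 checkC57_3
  have h4 := check_glue 0 45 15 45 60 (by norm_num) (by norm_num) h3 checkC57_4
  have h5 := check_glue 0 60 25 60 85 (by norm_num) (by norm_num) h4 checkC57_5
  have h6 := check_glue 0 85 30 85 115 (by norm_num) (by norm_num) h5 checkC57_6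
  have h7 := check_glue 0 115 81 115 196 (by norm_num) (by norm_num) h6 checkC57_7
  exact h7

theorem goodC57A : good 13 13 109 (certE 13 0 1 1 10 [] [X2sC57] [[(1, 0, 0, 0, 0)]]) = true := by
  decide +kernel

theorem bndC57A : 2 * bnd (certE 13 0 1 1 10 [] [X2sC57] [[(1, 0, 0, 0, 0)]]) < 2 ^ 109 := by
  decide +kernel

theorem checkC57A : check 109 14 13 (certE 13 0 1 1 10 [] [X2sC57] [[(1, 0, 0, 0, 0)]]) 0 (14 * 14) = true := by
  decide +kernel

theorem goodC57B : good 13 13 177 (certE 13 0 1 1 10 [] [[(1, 0, 0, 0, 0)]] [X1tC57]) = true := by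
  decide +kernel

theorem bndC57B : 2 * bnd (certE 13 0 1 1 10 [] [[(1, 0, 0, 0, 0)]] [X1tC57]) < 2 ^ 177 := by
  decide +kernel

theorem checkC57B : check 177 14 13 (certE 13 0 1 1 10 [] [[(1, 0, 0, 0, 0)]] [X1tC57]) 0 (14 * 14) = true := by
  decide +kernel

end Vale.Agent.P154
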