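import Vale.Agent.P154.R4W.LinkTools
import Vale.Agent.P154.R4W.C57Data

/-! # P154 q = 4: the term lists of the certificate `C57` are the closed forms -/

namespace Vale.Agent.P154

open Vale.Agent.Util.Polya

def L1cC57 : List ℤ := [36, -36, 36, -36, 32, -20, 7, -1]

def L2cC57 : List ℤ := [108, -216, 324, -432, 460, -316, 116, -17]

def L3cC57 : List ℤ := [351530410000, -1054591230000, 2090008143825, -3261396818435, 3911929680912, -3354491143740, 1923891666944, -689595462528, 138495811584, -11839757312]

theorem pitLdC57 : pit4 199 15 (smE 13 LdC57 (.mul (.c 280) (.v 0)) (.mul (.c 280) (.v 1)) (.mul (.c 280) (.v 2))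
    (.mul (.c 280) (.v 3)) (.c 80)) (lbSE (-277334692697064570137994712213094400000000000000000) 3209892276586395487708272132096000000000000000000 41086621140305862242665883290828800000000000000000 1227232437652297431530864640000000000000 L1cC57 L2cC57 L3cC57) = true := by
  decide +kernel

theorem pitX1sC57 : pit4 43 14 (smE 13 X1sC57 (.mul (.c 1) (.add (.c 1) (.v 0))) (.mul (.c 1) (.add (.c 1) (.v 1))) (.mul (.c 1) (.add (.c 1) (.v 2))) (.mul (.c 1) (.add (.c 1) (.v 3)))
    (.c 4)) (mulE (0) (0) (-4831838208) (704643072) (0) (0)) = true := by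
  decide +kernel

theorem pitX1tC57 : pit4 144 14 (smE 13 X1tC57 (.mul (.c 70) (.add (.c 1) (.v 0))) (.mul (.c 70) (.add (.c 1) (.v 1))) (.mul (.c 70) (.add (.c 1) (.v 2))) (.mul (.c 70) (.add (.c 1) (.v 3)))
    (.c 20)) (mulE (114794693347921210087833600000000000000000) (-51083638539824938489085952000000000000000) (18797631035722098151882752000000000000000) (609846808410831428591616000000000000000) (717466833424507563048960000000000000000) (0)) = true := by
  decide +kernel

theorem pitX2sC57 : pit4 46 14 (smE 13 X2sC57 (.mul (.c 1) (.add (.c 1) (.v 0))) (.mul (.c 1) (.add (.c 1) (.v 1))) (.mul (.c 1) (.add (.c 1) (.v 2))) (.mul (.c 1) (.add (.c 1) (.v 3)))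
    (.c 4)) (mulE (161061273600) (-21743271936) (-30601641984) (-11123294208) (31205621760) (0)) = true := by
  decide +kernel

theorem pitX2tC57 : pit4 142 14 (smE 13 X2tC57 (.mul (.c 70) (.add (.c 1) (.v 0))) (.mul (.c 70) (.add (.c 1) (.v 1))) (.mul (.c 70) (.add (.c 1) (.v 2))) (.mul (.c 70) (.add (.c 1) (.v 3)))
    (.c 20)) (mulE (0) (0) (-3443840800437636302635008000000000000000) (703117496756017411787980800000000000000) (0) (0)) = true := by
  decide +kernel

end Vale.Agent.P154
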