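import Vale.Agent.P154.R4K.MasterK

/-! # P154 q = 4: the packed check gives the certificate inequality for `a ≥ -1`, `b ≥ -5/7` -/

namespace Vale.Agent.P154

open Finset Vale.Agent.Util.Polya

theorem masterK57 (w S D : ℕ) (Ld : TL) (Xs Xt : List TL) (hw : 0 < w) (hD : D < S)
    (hg : good D D w (certE D 0 1 1 10 Ld Xs Xt) = true)
    (hb' : 2 * bnd (certE D 0 1 1 10 Ld Xs Xt) < 2 ^ w)
    (hc : check w S D (certE D 0 1 1 10 Ld Xs Xt) 0 (S * S) = true)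
    (a b : Fin 4 → ℝ) (ha0 : ∑ i, a i = 0) (ha : ∀ i, -1 ≤ a i) (hb0 : ∑ i, b i = 0)
    (hb : ∀ i, -(5 / 7) ≤ b i) :
    0 ≤ ∑ σ : Equiv.Perm (Fin 4),
        sm D Ld (280 * uQ a (fun i => b (σ i)) 0) (280 * uQ a (fun i => b (σ i)) 1)
          (280 * uQ a (fun i => b (σ i)) 2) (280 * uQ a (fun i => b (σ i)) 3) 80
      + dotRR (Xs.map (fun l => sm D l (1 + a 0) (1 + a 1) (1 + a 2) (1 + a 3) 4))
          (Xt.map (fun l => sm D l (70 * (1 + b 0)) (70 * (1 + b 1)) (70 * (1 + b 2))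
            (70 * (1 + b 3)) 20)) := by
  have h := masterG w S D 0 1 1 10 Ld Xs Xt hw hD hg hb' hc _ _ 4 20 (sideT_one a ha0 ha)
    (sideT_57 b hb0 hb)
  have e : ∀ (σ : Equiv.Perm (Fin 4)) (i : Fin 4),
      (1 + a i) * (70 * (1 + b (σ i))) = 280 * uQ a (fun i => b (σ i)) i := by
    intro σ i
    unfold uQ
    ring
  simp only [e] at h
  have e80 : (4 : ℝ) * 20 = 80 := by norm_num
  rw [e80] at h
  exact h

end Vale.Agent.P154
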