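import Vale.Agent.P154.R4W.C57Chk
import Vale.Agent.P154.R4W.C57Link
import Vale.Agent.P154.R4W.Master57
/-! # P154 q = 4: the closure inequality from the certificate `C57` -/

namespace Vale.Agent.P154

open Finset Vale.Agent.Util.Polya

noncomputable def c1C57 : (Fin 4 → ℝ) → ℝ := mulQ 1 (-89 / 200) (131 / 800) (17 / 3200) (1 / 160) 0

noncomputable def c2C57 : (Fin 4 → ℝ) → ℝ := mulQ 1 (-27 / 200) (-19 / 100) (-221 / 3200) (31 / 160) 0

theorem l1C57_le (Z : ℝ) (_ : 0 < Z) : ev1 (Z - 1) L1cC57 / 36 * Z ≤ 1 := by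
  have e : ev1 (Z - 1) L1cC57 / 36 * Z = 1 - ((Z - 1) ^ 2 * (Z - 2) * (Z - 3)) ^ 2 / 36 := by
    simp only [L1cC57, ev1, evL]
    push_cast
    ring
  rw [e]
  have := sq_nonneg ((Z - 1) ^ 2 * (Z - 2) * (Z - 3))
  linarith

theorem l2C57_le (Z : ℝ) (hZ : 0 < Z) : ev1 (Z - 1) L2cC57 / 108 * Z ^ 2 ≤ 1 := by
  have e : ev1 (Z - 1) L2cC57 / 108 * Z ^ 2
      = 1 - ((Z - 1) ^ 2 * (Z - 2) * (Z - 3)) ^ 2 * (3 + 17 * Z) / 108 := by
    simp only [L2cC57, ev1, evL]
    push_cast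
    ring
  rw [e]
  have h1 : 0 ≤ ((Z - 1) ^ 2 * (Z - 2) * (Z - 3)) ^ 2 * (3 + 17 * Z) :=
    mul_nonneg (sq_nonneg _) (by linarith)
  linarith

theorem l3C57_le (Z : ℝ) (_ : 0 < Z) : ev1 (Z - 1) L3cC57 / 351530410000 * Z ^ 3 ≤ 1 := by
  have e : ev1 (Z - 1) L3cC57 / 351530410000 * Z ^ 3
      = 1 - ((Z - 1) * (Z - 5 / 4) * (Z - 2) * (Z - 11 / 4) * (Z - 7 / 2)) ^ 2
        * (1001760192 + 1703799424 * (Z - 1) + 739984832 * (Z - 1) ^ 2) * 16 / 351530410000 := by
    simp only [L3cC57, ev1, evL]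
    push_cast
    ring
  rw [e]
  have q : 0 ≤ 1001760192 + 1703799424 * (Z - 1) + 739984832 * (Z - 1) ^ 2 := by
    nlinarith [sq_nonneg (2 * 739984832 * (Z - 1) + 1703799424)]
  have h1 : 0 ≤ ((Z - 1) * (Z - 5 / 4) * (Z - 2) * (Z - 11 / 4) * (Z - 7 / 2)) ^ 2
      * (1001760192 + 1703799424 * (Z - 1) + 739984832 * (Z - 1) ^ 2) := mul_nonneg (sq_nonneg _) q
  linarith

theorem h1sC57 (a : Fin 4 → ℝ) :
    sm 13 X1sC57 (1 + a 0) (1 + a 1) (1 + a 2) (1 + a 3) 4 = (-57982058496) * psK (7 / 4) a := by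
  have h := sm_eq_mulQ 43 14 13 X1sC57 1 4 (0) (0) (-4831838208) (704643072) (0) (0) pitX1sC57 a
  push_cast at h
  simp only [one_mul] at h
  rw [h, psK_eq_mulQ]
  unfold mulQ
  ring

theorem h2sC57 (a : Fin 4 → ℝ) :
    sm 13 X2sC57 (1 + a 0) (1 + a 1) (1 + a 2) (1 + a 3) 4 = 161061273600 * c2C57 a := by
  have h := sm_eq_mulQ 46 14 13 X2sC57 1 4 (161061273600) (-21743271936) (-30601641984) (-11123294208) (31205621760) (0) pitX2sC57 a
  push_cast at h
  simp only [one_mul] at h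
  rw [h]
  unfold c2C57 mulQ
  ring

theorem h1tC57 (b : Fin 4 → ℝ) :
    sm 13 X1tC57 (70 * (1 + b 0)) (70 * (1 + b 1)) (70 * (1 + b 2)) (70 * (1 + b 3)) 20
      = 114794693347921210087833600000000000000000 * c1C57 b := by
  have h := sm_eq_mulQ 144 14 13 X1tC57 70 20 (114794693347921210087833600000000000000000) (-51083638539824938489085952000000000000000) (18797631035722098151882752000000000000000) (609846808410831428591616000000000000000) (717466833424507563048960000000000000000) (0) pitX1tC57 b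
  push_cast at h
  rw [h]
  unfold c1C57 mulQ
  ring

theorem h2tC57 (b : Fin 4 → ℝ) :
    sm 13 X2tC57 (70 * (1 + b 0)) (70 * (1 + b 1)) (70 * (1 + b 2)) (70 * (1 + b 3)) 20
      = (-41326089605251635631620096000000000000000) * psK (49 / 20) b := by
  have h := sm_eq_mulQ 142 14 13 X2tC57 70 20 (0) (0) (-3443840800437636302635008000000000000000) (703117496756017411787980800000000000000) (0) (0) pitX2tC57 b
  push_cast at h
  rw [h, psK_eq_mulQ]
  unfold mulQ
  ring

theorem hLdC57 (u : Fin 4 → ℝ) :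
    sm 13 LdC57 (280 * u 0) (280 * u 1) (280 * u 2) (280 * u 3) 80
      = 277334692697064570137994712213094400000000000000000 * lbS (7 / 4) u (ev1 (e1Q u - 1) L1cC57 / 36) (ev1 (e1Q u - 1) L2cC57 / 108)
        (ev1 (e1Q u - 1) L3cC57 / 351530410000) := by
  have h := sm_eq_lbSE 199 15 13 LdC57 280 80 (-277334692697064570137994712213094400000000000000000) 3209892276586395487708272132096000000000000000000 41086621140305862242665883290828800000000000000000 1227232437652297431530864640000000000000 L1cC57 L2cC57 L3cC57 pitLdC57 u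
  push_cast at h
  rw [h]
  unfold lbS
  ring

theorem keyCC57 (a b : Fin 4 → ℝ) (ha : DT 1 a) (hb : DT (5 / 7) b) :
    c1C57 b * psK (7 / 4) a + c2C57 a * psK (49 / 20) b ≤ avQ (KQ (psK (7 / 4)) a) b :=
  keyC_asm (7 / 4) (49 / 20) (5 / 7) (by norm_num) (by norm_num) (by norm_num) 13 LdC57 X1sC57 X1tC57 X2sC57 X2tC57
    280 80 70 4 20 277334692697064570137994712213094400000000000000000 (-57982058496) 114794693347921210087833600000000000000000 161061273600 (-41326089605251635631620096000000000000000) (by norm_num)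
    (fun Z => ev1 (Z - 1) L1cC57 / 36) (fun Z => ev1 (Z - 1) L2cC57 / 108) (fun Z => ev1 (Z - 1) L3cC57 / 351530410000)
    c1C57 c2C57 (fun Z hZ => l1C57_le Z hZ) (fun Z hZ => l2C57_le Z hZ) (fun Z hZ => l3C57_le Z hZ)
    (fun a b ha hb => masterK57 188 14 13 LdC57 [X1sC57, X2sC57] [X1tC57, X2tC57] (by norm_num) (by norm_num)
      goodC57 bndC57 checkC57 a b ha.1 ha.2 hb.1 hb.2)
    hLdC57 h1sC57 h1tC57 (by norm_num) h2sC57 h2tC57 (by norm_num) a b ha hb

private theorem pm4_zero (x y z w : ℝ) : pm4 x y z w 0 0 0 0 = 24 := by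
  unfold pm4 pm3 pm2
  norm_num

theorem c2C57_nonneg (a : Fin 4 → ℝ) (ha : DT 1 a) : 0 ≤ c2C57 a := by
  have h := masterK57 109 14 13 [] [X2sC57] [[(1, 0, 0, 0, 0)]] (by norm_num) (by norm_num)
    goodC57A bndC57A checkC57A a (fun _ => 0) ha.1 ha.2 (by simp) (fun i => by norm_num)
  simp only [List.map_cons, List.map_nil, dotRR, h2sC57] at h
  simp only [sm, pm4_zero, Finset.sum_const_zero] at h
  have h2 : (0 : ℝ) ≤ (161061273600 * (24 * 20 ^ 13)) * c2C57 a := by
    norm_num at h ⊢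
    linarith
  exact (mul_nonneg_iff_of_pos_left (by norm_num)).1 h2

theorem c1C57_nonneg (b : Fin 4 → ℝ) (hb : DT (5 / 7) b) : 0 ≤ c1C57 b := by
  have h := masterK57 177 14 13 [] [[(1, 0, 0, 0, 0)]] [X1tC57] (by norm_num) (by norm_num)
    goodC57B bndC57B checkC57B (fun _ => 0) b (by simp) (fun i => by norm_num) hb.1 hb.2
  simp only [List.map_cons, List.map_nil, dotRR, h1tC57] at h
  simp only [sm, pm4_zero, Finset.sum_const_zero] at h
  have h2 : (0 : ℝ) ≤ (114794693347921210087833600000000000000000 * (24 * 4 ^ 13)) * c1C57 b := by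
    norm_num at h ⊢
    linarith
  exact (mul_nonneg_iff_of_pos_left (by norm_num)).1 h2

end Vale.Agent.P154
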