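import Vale.Agent.P154.R4W.LinkTools5

/-!
# P154 q = 4: the multiplier `cTT` of the closure certificate on `T × T` is nonnegative on `T`

`cTT` is the symmetric multiplier of degree six (in power sums of the deviation vector); `XcTT` is its term list
(`sm D XcTT (1 + a) 4 = 2880000 * 4 ^ D * cTT a` for `D = 13, 15, 16`); all coefficients in chamber coordinates at degree 13 are nonnegative.
-/

namespace Vale.Agent.P154

open Finset Vale.Agent.Util.Polya

noncomputable def cTT : (Fin 4 → ℝ) → ℝ :=
  mulQ9 1 (-13761 / 40000) (-103 / 800) (-11409 / 64000) (43297 / 80000) (-29801 / 480000) (46719 / 1280000) (43357 / 1920000) (-22709 / 320000)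

def XcTT : TL :=
  [(240801, 0, 0, 0, 0), (-4982824, 1, 0, 0, 0), (24121116, 1, 1, 0, 0), (-53820288, 1, 1, 1, 0), (32337044, 2, 0, 0, 0), (-160788960, 2, 1, 0, 0), (322921728, 2, 1, 1, 0), (243823680, 2, 2, 0, 0), (-645843456, 2, 2, 1, 0), (430562304, 2, 2, 2, 0), (-84413344, 3, 0, 0, 0), (209357184, 3, 1, 0, 0), (-518608896, 3, 2, 0, 0), (133192704, 3, 3, 0, 0), (75042880, 4, 0, 0, 0), (-113635584, 4, 1, 0, 0), (227271168, 4, 2, 0, 0), (4532992, 5, 0, 0, 0), (-23366144, 6, 0, 0, 0)]

theorem pitXcTT13 : pit4 90 8 (smE 13 XcTT (.mul (.c 1) (.add (.c 1) (.v 0))) (.mul (.c 1) (.add (.c 1) (.v 1))) (.mul (.c 1) (.add (.c 1) (.v 2))) (.mul (.c 1) (.add (.c 1) (.v 3)))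
    (.c 4)) (mulE9 (193273528320000) (-66490925580288) (-24883966771200) (-34454026321920) (104602049445888) (-11999467536384) (7054332788736) (4364458524672) (-13715776733184)) = true := by
  decide +kernel

theorem hXcTT13 (a : Fin 4 → ℝ) :
    sm 13 XcTT (1 + a 0) (1 + a 1) (1 + a 2) (1 + a 3) 4 = 193273528320000 * cTT a := by
  have h := sm_eq_mulQ9 90 8 13 XcTT 1 4 (193273528320000) (-66490925580288) (-24883966771200) (-34454026321920) (104602049445888) (-11999467536384) (7054332788736) (4364458524672) (-13715776733184) pitXcTT13 a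
  push_cast at h
  simp only [one_mul] at h
  rw [h]
  unfold cTT mulQ9
  ring

theorem pitXcTT15 : pit4 90 8 (smE 15 XcTT (.mul (.c 1) (.add (.c 1) (.v 0))) (.mul (.c 1) (.add (.c 1) (.v 1))) (.mul (.c 1) (.add (.c 1) (.v 2))) (.mul (.c 1) (.add (.c 1) (.v 3)))
    (.c 4)) (mulE9 (3092376453120000) (-1063854809284608) (-398143468339200) (-551264421150720) (1673632791134208) (-191991480582144) (112869324619776) (69831336394752) (-219452427730944)) = true := by
  decide +kernel

theorem hXcTT15 (a : Fin 4 → ℝ) :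
    sm 15 XcTT (1 + a 0) (1 + a 1) (1 + a 2) (1 + a 3) 4 = 3092376453120000 * cTT a := by
  have h := sm_eq_mulQ9 90 8 15 XcTT 1 4 (3092376453120000) (-1063854809284608) (-398143468339200) (-551264421150720) (1673632791134208) (-191991480582144) (112869324619776) (69831336394752) (-219452427730944) pitXcTT15 a
  push_cast at h
  simp only [one_mul] at h
  rw [h]
  unfold cTT mulQ9
  ring

theorem pitXcTT16 : pit4 90 8 (smE 16 XcTT (.mul (.c 1) (.add (.c 1) (.v 0))) (.mul (.c 1) (.add (.c 1) (.v 1))) (.mul (.c 1) (.add (.c 1) (.v 2))) (.mul (.c 1) (.add (.c 1) (.v 3)))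
    (.c 4)) (mulE9 (12369505812480000) (-4255419237138432) (-1592573873356800) (-2205057684602880) (6694531164536832) (-767965922328576) (451477298479104) (279325345579008) (-877809710923776)) = true := by
  decide +kernel

theorem hXcTT16 (a : Fin 4 → ℝ) :
    sm 16 XcTT (1 + a 0) (1 + a 1) (1 + a 2) (1 + a 3) 4 = 12369505812480000 * cTT a := by
  have h := sm_eq_mulQ9 90 8 16 XcTT 1 4 (12369505812480000) (-4255419237138432) (-1592573873356800) (-2205057684602880) (6694531164536832) (-767965922328576) (451477298479104) (279325345579008) (-877809710923776) pitXcTT16 a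
  push_cast at h
  simp only [one_mul] at h
  rw [h]
  unfold cTT mulQ9
  ring

theorem goodXcTT : good 13 0 74 (oneE 13 0 1 XcTT) = true := by
  decide +kernel

theorem bndXcTT : 2 * bnd (oneE 13 0 1 XcTT) < 2 ^ 74 := by
  decide +kernel

theorem checkXcTT : check 74 14 13 (oneE 13 0 1 XcTT) 0 (14 * 14) = true := by
  decide +kernel

theorem cTT_nonneg (a : Fin 4 → ℝ) (ha : DT 1 a) : 0 ≤ cTT a := by
  have h := sm_nonneg_of_check 74 14 13 0 1 XcTT (by norm_num) (by norm_num) goodXcTT bndXcTT checkXcTT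
    (fun i => 1 + a i) 4 (sideT_one a ha.1 ha.2)
  simp only [hXcTT13] at h
  exact (mul_nonneg_iff_of_pos_left (by norm_num)).1 h

end Vale.Agent.P154
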