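import Vale.Agent.P154.R4K.SmPit
import Vale.Agent.P154.R4W.Asm

/-!
# P154 q = 4: expressions for the closed forms of the certificates, and the identities for the term lists

`lbSE` is the expression of an integer multiple of `lbS`; `mulE` the expression of an integer combination of power sums.
-/

namespace Vale.Agent.P154

open Finset Vale.Agent.Util.Polya

def hornE (x : PE) : List ℤ → PE
  | [] => .c 0
  | a :: c => .add (.c a) (.mul x (hornE x c))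

theorem ev_hornE (p : Fin 4 → ℝ) (x : PE) (c : List ℤ) :
    PE.ev p (hornE x c) = ev1 (PE.ev p x) c := by
  induction c with
  | nil => simp [hornE, PE.ev, ev1, evL]
  | cons a c ih =>
    simp only [hornE, PE.ev, ih]
    simp [ev1, evL]

def e1E : PE := .add (.add (.add (.v 0) (.v 1)) (.v 2)) (.v 3)

def e2E : PE :=
  .add (.add (.add (.add (.add (.mul (.v 0) (.v 1)) (.mul (.v 0) (.v 2))) (.mul (.v 0) (.v 3)))
    (.mul (.v 1) (.v 2))) (.mul (.v 1) (.v 3))) (.mul (.v 2) (.v 3))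

def e3E : PE :=
  .add (.add (.add (.mul (.mul (.v 0) (.v 1)) (.v 2)) (.mul (.mul (.v 0) (.v 1)) (.v 3)))
    (.mul (.mul (.v 0) (.v 2)) (.v 3))) (.mul (.mul (.v 1) (.v 2)) (.v 3))

theorem ev_e1E (u : Fin 4 → ℝ) : PE.ev u e1E = e1Q u := rfl
theorem ev_e2E (u : Fin 4 → ℝ) : PE.ev u e2E = e2Q u := rfl
theorem ev_e3E (u : Fin 4 → ℝ) : PE.ev u e3E = e3Q u := rfl

def zE : PE := .add e1E (.c (-1))
def nsqE : PE := .add (.mul (.c 3) (.pow e1E 2)) (.mul (.c (-8)) e2E)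

def lbSE (nZ n1 n2 n3 : ℤ) (L1 L2 L3 : List ℤ) : PE :=
  .add (.add (.add (.mul (.c nZ) e1E) (.mul (.c n1) (.mul nsqE (hornE zE L1))))
    (.mul (.c n2) (.mul e3E (hornE zE L2)))) (.mul (.c n3) (.mul (.mul nsqE e2E) (hornE zE L3)))

theorem ev_lbSE (u : Fin 4 → ℝ) (nZ n1 n2 n3 : ℤ) (L1 L2 L3 : List ℤ) :
    PE.ev u (lbSE nZ n1 n2 n3 L1 L2 L3) =
      nZ * e1Q u + n1 * ((3 * e1Q u ^ 2 - 8 * e2Q u) * ev1 (e1Q u - 1) L1)
        + n2 * (e3Q u * ev1 (e1Q u - 1) L2)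
        + n3 * ((3 * e1Q u ^ 2 - 8 * e2Q u) * e2Q u * ev1 (e1Q u - 1) L3) := by
  simp only [lbSE, nsqE, zE, PE.ev, ev_hornE, ev_e1E, ev_e2E, ev_e3E]
  push_cast
  have e : e1Q u + -1 = e1Q u - 1 := by ring
  rw [e]
  ring

/-- the identity for the diagonal list -/
theorem sm_eq_lbSE (w S D : ℕ) (Ld : TL) (s HH nZ n1 n2 n3 : ℤ) (L1 L2 L3 : List ℤ)
    (hc : pit4 w S (smE D Ld (.mul (.c s) (.v 0)) (.mul (.c s) (.v 1)) (.mul (.c s) (.v 2))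
      (.mul (.c s) (.v 3)) (.c HH)) (lbSE nZ n1 n2 n3 L1 L2 L3) = true) (u : Fin 4 → ℝ) :
    sm D Ld (s * u 0) (s * u 1) (s * u 2) (s * u 3) HH =
      nZ * e1Q u + n1 * ((3 * e1Q u ^ 2 - 8 * e2Q u) * ev1 (e1Q u - 1) L1)
        + n2 * (e3Q u * ev1 (e1Q u - 1) L2)
        + n3 * ((3 * e1Q u ^ 2 - 8 * e2Q u) * e2Q u * ev1 (e1Q u - 1) L3) := by
  rw [← ev_lbSE]
  exact sm_eq_of_pit4 w S D Ld _ _ _ _ _ _ hc u

def psE (n : ℕ) : PE := .add (.add (.add (.pow (.v 0) n) (.pow (.v 1) n)) (.pow (.v 2) n)) (.pow (.v 3) n)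

theorem ev_psE (a : Fin 4 → ℝ) (n : ℕ) : PE.ev a (psE n) = ∑ i, a i ^ n := by
  rw [Fin.sum_univ_four]
  rfl

/-- combination of power sums -/
noncomputable def mulQ (g0 g2 g3 g22 g4 g23 : ℝ) (b : Fin 4 → ℝ) : ℝ :=
  g0 + g2 * (∑ i, b i ^ 2) + g3 * (∑ i, b i ^ 3) + g22 * (∑ i, b i ^ 2) ^ 2 + g4 * (∑ i, b i ^ 4)
    + g23 * ((∑ i, b i ^ 2) * (∑ i, b i ^ 3))

def mulE (g0 g2 g3 g22 g4 g23 : ℤ) : PE :=
  .add (.add (.add (.add (.add (.c g0) (.mul (.c g2) (psE 2))) (.mul (.c g3) (psE 3)))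
    (.mul (.c g22) (.pow (psE 2) 2))) (.mul (.c g4) (psE 4))) (.mul (.c g23) (.mul (psE 2) (psE 3)))

theorem ev_mulE (b : Fin 4 → ℝ) (g0 g2 g3 g22 g4 g23 : ℤ) :
    PE.ev b (mulE g0 g2 g3 g22 g4 g23) = mulQ g0 g2 g3 g22 g4 g23 b := by
  simp only [mulE, PE.ev, ev_psE, mulQ]

/-- the identity for a list of a product term -/
theorem sm_eq_mulQ (w S D : ℕ) (L : TL) (sc HH g0 g2 g3 g22 g4 g23 : ℤ)
    (hc : pit4 w S (smE D L (.mul (.c sc) (.add (.c 1) (.v 0))) (.mul (.c sc) (.add (.c 1) (.v 1)))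
      (.mul (.c sc) (.add (.c 1) (.v 2))) (.mul (.c sc) (.add (.c 1) (.v 3))) (.c HH))
      (mulE g0 g2 g3 g22 g4 g23) = true) (b : Fin 4 → ℝ) :
    sm D L (sc * (1 + b 0)) (sc * (1 + b 1)) (sc * (1 + b 2)) (sc * (1 + b 3)) HH =
      mulQ g0 g2 g3 g22 g4 g23 b := by
  rw [← ev_mulE]
  have := sm_eq_of_pit4 w S D L _ _ _ _ _ _ hc b
  simpa only [PE.ev, Int.cast_one] using this

theorem psK_eq_mulQ (k : ℝ) (a : Fin 4 → ℝ) : psK k a = mulQ 0 0 (1 / 12) (-k / 144) 0 0 a := by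
  unfold psK alQ mulQ
  push_cast
  ring

theorem mulQ_smul (n g0 g2 g3 g22 g4 g23 : ℝ) (b : Fin 4 → ℝ) :
    n * mulQ g0 g2 g3 g22 g4 g23 b = mulQ (n * g0) (n * g2) (n * g3) (n * g22) (n * g4) (n * g23) b := by
  unfold mulQ
  ring

end Vale.Agent.P154
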