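import Vale.Agent.P154.R4W.LinkTools
import Vale.Agent.P154.R4W.Asm5

/-!
# P154 q = 4: link tools for the class function `ps5` and multipliers of degree six

`lbS5E` is the expression of an integer multiple of `lbS5` (four minorant lists); `mulQ9`, `mulE9` are combinations of the nine
products of power sums of degree at most six; `keyG_asm3` is `keyG_asm` with a third product term (a nonnegative slack term).
-/

namespace Vale.Agent.P154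

open Finset Vale.Agent.Util.Polya

def lbS5E (nZ n1 n2 n3 n4 : ℤ) (L1 L2 L3 L4 : List ℤ) : PE :=
  .add (.add (.add (.add (.mul (.c nZ) e1E) (.mul (.c n1) (.mul nsqE (hornE zE L1))))
    (.mul (.c n2) (.mul e3E (hornE zE L2)))) (.mul (.c n3) (.mul (.mul nsqE e2E) (hornE zE L3))))
    (.mul (.c n4) (.mul (.mul nsqE e3E) (hornE zE L4)))

theorem ev_lbS5E (u : Fin 4 → ℝ) (nZ n1 n2 n3 n4 : ℤ) (L1 L2 L3 L4 : List ℤ) :
    PE.ev u (lbS5E nZ n1 n2 n3 n4 L1 L2 L3 L4) =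
      nZ * e1Q u + n1 * ((3 * e1Q u ^ 2 - 8 * e2Q u) * ev1 (e1Q u - 1) L1)
        + n2 * (e3Q u * ev1 (e1Q u - 1) L2)
        + n3 * ((3 * e1Q u ^ 2 - 8 * e2Q u) * e2Q u * ev1 (e1Q u - 1) L3)
        + n4 * ((3 * e1Q u ^ 2 - 8 * e2Q u) * e3Q u * ev1 (e1Q u - 1) L4) := by
  simp only [lbS5E, nsqE, zE, PE.ev, ev_hornE, ev_e1E, ev_e2E, ev_e3E]
  push_cast
  have e : e1Q u + -1 = e1Q u - 1 := by ring
  rw [e]
  ring

/-- the identity for the diagonal list, four minorants -/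
theorem sm_eq_lbS5E (w S D : ℕ) (Ld : TL) (s HH nZ n1 n2 n3 n4 : ℤ) (L1 L2 L3 L4 : List ℤ)
    (hc : pit4 w S (smE D Ld (.mul (.c s) (.v 0)) (.mul (.c s) (.v 1)) (.mul (.c s) (.v 2))
      (.mul (.c s) (.v 3)) (.c HH)) (lbS5E nZ n1 n2 n3 n4 L1 L2 L3 L4) = true) (u : Fin 4 → ℝ) :
    sm D Ld (s * u 0) (s * u 1) (s * u 2) (s * u 3) HH =
      nZ * e1Q u + n1 * ((3 * e1Q u ^ 2 - 8 * e2Q u) * ev1 (e1Q u - 1) L1)
        + n2 * (e3Q u * ev1 (e1Q u - 1) L2)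
        + n3 * ((3 * e1Q u ^ 2 - 8 * e2Q u) * e2Q u * ev1 (e1Q u - 1) L3)
        + n4 * ((3 * e1Q u ^ 2 - 8 * e2Q u) * e3Q u * ev1 (e1Q u - 1) L4) := by
  rw [← ev_lbS5E]
  exact sm_eq_of_pit4 w S D Ld _ _ _ _ _ _ hc u

/-- the right side of `sm_eq_lbS5E` as a multiple of `lbS5`, for minorants `ev1 (Z - 1) L_j / d_j` -/
theorem lbS5_of_lists (N k0 k5 d1 d2 d3 d4 nZ n1 n2 n3 n4 : ℝ) (L1 L2 L3 L4 : List ℤ)
    (hd1 : d1 ≠ 0) (hd2 : d2 ≠ 0) (hd3 : d3 ≠ 0) (hd4 : d4 ≠ 0)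
    (hZ : nZ = -N) (h1 : n1 * d1 = N * ((3 - k0 + k5) / 3)) (h2 : n2 * d2 = N * 16)
    (h3 : n3 * d3 = N * (8 * (k0 - 3 / 2 * k5) / 9)) (h4 : n4 * d4 = N * (8 * k5 / 3))
    (u : Fin 4 → ℝ) :
    nZ * e1Q u + n1 * ((3 * e1Q u ^ 2 - 8 * e2Q u) * ev1 (e1Q u - 1) L1)
        + n2 * (e3Q u * ev1 (e1Q u - 1) L2)
        + n3 * ((3 * e1Q u ^ 2 - 8 * e2Q u) * e2Q u * ev1 (e1Q u - 1) L3)
        + n4 * ((3 * e1Q u ^ 2 - 8 * e2Q u) * e3Q u * ev1 (e1Q u - 1) L4)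
      = N * lbS5 k0 k5 u (ev1 (e1Q u - 1) L1 / d1) (ev1 (e1Q u - 1) L2 / d2)
          (ev1 (e1Q u - 1) L3 / d3) (ev1 (e1Q u - 1) L4 / d4) := by
  unfold lbS5
  have g1 : n1 = N * ((3 - k0 + k5) / 3) / d1 := by rw [eq_div_iff hd1]; exact h1
  have g2 : n2 = N * 16 / d2 := by rw [eq_div_iff hd2]; exact h2
  have g3 : n3 = N * (8 * (k0 - 3 / 2 * k5) / 9) / d3 := by rw [eq_div_iff hd3]; exact h3
  have g4 : n4 = N * (8 * k5 / 3) / d4 := by rw [eq_div_iff hd4]; exact h4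
  rw [hZ, g1, g2, g3, g4]
  ring

/-- combination of the products of power sums of degree at most six -/
noncomputable def mulQ9 (g0 g2 g3 g22 g4 g23 g222 g33 g24 : ℝ) (b : Fin 4 → ℝ) : ℝ :=
  g0 + g2 * (∑ i, b i ^ 2) + g3 * (∑ i, b i ^ 3) + g22 * (∑ i, b i ^ 2) ^ 2 + g4 * (∑ i, b i ^ 4)
    + g23 * ((∑ i, b i ^ 2) * (∑ i, b i ^ 3)) + g222 * (∑ i, b i ^ 2) ^ 3
    + g33 * (∑ i, b i ^ 3) ^ 2 + g24 * ((∑ i, b i ^ 2) * (∑ i, b i ^ 4))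

def mulE9 (g0 g2 g3 g22 g4 g23 g222 g33 g24 : ℤ) : PE :=
  .add (.add (.add (mulE g0 g2 g3 g22 g4 g23) (.mul (.c g222) (.pow (psE 2) 3)))
    (.mul (.c g33) (.pow (psE 3) 2))) (.mul (.c g24) (.mul (psE 2) (psE 4)))

theorem ev_mulE9 (b : Fin 4 → ℝ) (g0 g2 g3 g22 g4 g23 g222 g33 g24 : ℤ) :
    PE.ev b (mulE9 g0 g2 g3 g22 g4 g23 g222 g33 g24)
      = mulQ9 g0 g2 g3 g22 g4 g23 g222 g33 g24 b := by
  simp only [mulE9, PE.ev, ev_psE, ev_mulE, mulQ, mulQ9]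

/-- the identity for a list of a product term, multipliers of degree six -/
theorem sm_eq_mulQ9 (w S D : ℕ) (L : TL) (sc HH g0 g2 g3 g22 g4 g23 g222 g33 g24 : ℤ)
    (hc : pit4 w S (smE D L (.mul (.c sc) (.add (.c 1) (.v 0))) (.mul (.c sc) (.add (.c 1) (.v 1)))
      (.mul (.c sc) (.add (.c 1) (.v 2))) (.mul (.c sc) (.add (.c 1) (.v 3))) (.c HH))
      (mulE9 g0 g2 g3 g22 g4 g23 g222 g33 g24) = true) (b : Fin 4 → ℝ) :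
    sm D L (sc * (1 + b 0)) (sc * (1 + b 1)) (sc * (1 + b 2)) (sc * (1 + b 3)) HH =
      mulQ9 g0 g2 g3 g22 g4 g23 g222 g33 g24 b := by
  rw [← ev_mulE9]
  have := sm_eq_of_pit4 w S D L _ _ _ _ _ _ hc b
  simpa only [PE.ev, Int.cast_one] using this

theorem mulQ9_eq_mulQ (g0 g2 g3 g22 g4 g23 : ℝ) (b : Fin 4 → ℝ) :
    mulQ9 g0 g2 g3 g22 g4 g23 0 0 0 b = mulQ g0 g2 g3 g22 g4 g23 b := by
  unfold mulQ9 mulQ
  ring

theorem ps5_eq_mulQ (k0 k5 : ℝ) (a : Fin 4 → ℝ) :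
    ps5 k0 k5 a = mulQ 0 0 (1 / 12) (-k0 / 144) 0 (k5 / 288) a := by
  rw [ps5_eq]
  unfold alQ mulQ
  push_cast
  ring

theorem ps5_eq_mulQ9 (k0 k5 : ℝ) (a : Fin 4 → ℝ) :
    ps5 k0 k5 a = mulQ9 0 0 (1 / 12) (-k0 / 144) 0 (k5 / 288) 0 0 0 a := by
  rw [mulQ9_eq_mulQ, ps5_eq_mulQ]

theorem alQ_eq_mulQ (a : Fin 4 → ℝ) : alQ a = mulQ 0 (1 / 12) 0 0 0 0 a := by
  unfold alQ mulQ
  push_cast
  ring

theorem alQ_eq_mulQ9 (a : Fin 4 → ℝ) : alQ a = mulQ9 0 (1 / 12) 0 0 0 0 0 0 0 a := by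
  rw [mulQ9_eq_mulQ, alQ_eq_mulQ]

theorem mulQ9_smul (n g0 g2 g3 g22 g4 g23 g222 g33 g24 : ℝ) (b : Fin 4 → ℝ) :
    n * mulQ9 g0 g2 g3 g22 g4 g23 g222 g33 g24 b
      = mulQ9 (n * g0) (n * g2) (n * g3) (n * g22) (n * g4) (n * g23) (n * g222) (n * g33)
          (n * g24) b := by
  unfold mulQ9
  ring

theorem alQ_nonneg5 (a : Fin 4 → ℝ) : 0 ≤ alQ a := by
  unfold alQ
  positivity

/-- `keyG_asm` with a third product term `n3 * alQ a * (n3' * alQ b)`, `n3 * n3' ≤ 0` (slack of the certificate) -/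
theorem keyG_asm3 (ps : (Fin 4 → ℝ) → ℝ) (R : (Fin 4 → ℝ) → ℝ)
    (D : ℕ) (Ld X1s X1t X2s X2t X3s X3t : TL) (s HH sQ H H' N n1 n1' n2 n2' n3 n3' : ℝ)
    (hN : 0 < N) (c1 c2 : (Fin 4 → ℝ) → ℝ)
    (hR : ∀ a b : Fin 4 → ℝ, DT 1 a → DT 1 b → (∀ i, -1 < b i) → R (uQ a b) ≤ KQ ps a b)
    (hpos : ∀ a b : Fin 4 → ℝ, DT 1 a → DT 1 b →
      0 ≤ ∑ σ : Equiv.Perm (Fin 4),
          sm D Ld (s * uQ a (fun i => b (σ i)) 0) (s * uQ a (fun i => b (σ i)) 1)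
            (s * uQ a (fun i => b (σ i)) 2) (s * uQ a (fun i => b (σ i)) 3) HH
        + dotRR ([X1s, X2s, X3s].map (fun l => sm D l (1 + a 0) (1 + a 1) (1 + a 2) (1 + a 3) H))
            ([X1t, X2t, X3t].map (fun l => sm D l (sQ * (1 + b 0)) (sQ * (1 + b 1))
              (sQ * (1 + b 2)) (sQ * (1 + b 3)) H')))
    (hLd : ∀ u : Fin 4 → ℝ, sm D Ld (s * u 0) (s * u 1) (s * u 2) (s * u 3) HH = N * R u)
    (h1s : ∀ a : Fin 4 → ℝ, sm D X1s (1 + a 0) (1 + a 1) (1 + a 2) (1 + a 3) H = n1 * ps a)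
    (h1t : ∀ b : Fin 4 → ℝ, sm D X1t (sQ * (1 + b 0)) (sQ * (1 + b 1)) (sQ * (1 + b 2))
      (sQ * (1 + b 3)) H' = n1' * c1 b)
    (hn1 : n1 * n1' = -(24 * N))
    (h2s : ∀ a : Fin 4 → ℝ, sm D X2s (1 + a 0) (1 + a 1) (1 + a 2) (1 + a 3) H = n2 * c2 a)
    (h2t : ∀ b : Fin 4 → ℝ, sm D X2t (sQ * (1 + b 0)) (sQ * (1 + b 1)) (sQ * (1 + b 2))
      (sQ * (1 + b 3)) H' = n2' * ps b)
    (hn2 : n2 * n2' = -(24 * N))
    (h3s : ∀ a : Fin 4 → ℝ, sm D X3s (1 + a 0) (1 + a 1) (1 + a 2) (1 + a 3) H = n3 * alQ a)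
    (h3t : ∀ b : Fin 4 → ℝ, sm D X3t (sQ * (1 + b 0)) (sQ * (1 + b 1)) (sQ * (1 + b 2))
      (sQ * (1 + b 3)) H' = n3' * alQ b)
    (hn3 : n3 * n3' ≤ 0)
    (a b : Fin 4 → ℝ) (ha : DT 1 a) (hb : DT 1 b) (hb1 : ∀ i, -1 < b i) :
    c1 b * ps a + c2 a * ps b ≤ avQ (KQ ps a) b := by
  have hp := hpos a b ha hb
  simp only [List.map_cons, List.map_nil, dotRR, h1s, h1t, h2s, h2t, h3s, h3t, hLd] at hp
  have hle : ∀ σ : Equiv.Perm (Fin 4),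
      R (uQ a (fun i => b (σ i))) ≤ KQ ps a (fun i => b (σ i)) :=
    fun σ => hR a _ ha (dt_permG 1 b hb σ) (fun i => hb1 (σ i))
  have hsum := Finset.sum_le_sum (fun σ (_ : σ ∈ (Finset.univ : Finset (Equiv.Perm (Fin 4)))) => hle σ)
  rw [← Finset.mul_sum] at hp
  unfold avQ
  have h24 : ((Nat.factorial 4 : ℕ) : ℝ) = 24 := by norm_num [Nat.factorial]
  rw [h24, le_div_iff₀ (by norm_num)]
  set S1 := ∑ σ : Equiv.Perm (Fin 4), R (uQ a (fun i => b (σ i)))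
  set S2 := ∑ σ : Equiv.Perm (Fin 4), KQ ps a (fun i => b (σ i))
  have e1 : n1 * ps a * (n1' * c1 b) = -(24 * N) * (c1 b * ps a) := by
    rw [← hn1]; ring
  have e2 : n2 * c2 a * (n2' * ps b) = -(24 * N) * (c2 a * ps b) := by
    rw [← hn2]; ring
  have e3 : n3 * alQ a * (n3' * alQ b) ≤ 0 := by
    have h : n3 * alQ a * (n3' * alQ b) = (n3 * n3') * (alQ a * alQ b) := by ring
    rw [h]
    exact mul_nonpos_of_nonpos_of_nonneg hn3 (mul_nonneg (alQ_nonneg5 a) (alQ_nonneg5 b))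
  rw [e1, e2] at hp
  have h3 : N * ((c1 b * ps a + c2 a * ps b) * 24) ≤ N * S1 := by linarith
  have h4 := le_of_mul_le_mul_left h3 hN
  linarith

end Vale.Agent.P154
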