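import Vale.Agent.P154.R4K.MasterK

/-!
# P154 q = 4: generalised diagonalisation of the group average

`pmV_mix_perm`: the sum over all relative permutations of `(∑ i, P i ^ p * Q (σ i) ^ q) * pmV (P * Q ∘ σ) κ` is
`∑_j pmV P (κ + p e_j) * pmV Q (κ + q e_j)`.  `dotRR_mix` is the version for term lists.
-/

namespace Vale.Agent.P154

open Finset

private theorem pmV_sumF (A : Fin 4 → ℝ) (a b c d : ℕ) :
    pmV A a b c d =
      ∑ τ : Equiv.Perm (Fin 4), A (τ 0) ^ a * A (τ 1) ^ b * A (τ 2) ^ c * A (τ 3) ^ d := by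
  have h := pmV_eq_sum A ![a, b, c, d]
  simp only [Fin.prod_univ_four] at h
  exact h

theorem pmV_mix_perm (P Q : Fin 4 → ℝ) (p q a b c d : ℕ) :
    ∑ σ : Equiv.Perm (Fin 4), (∑ i, P i ^ p * Q (σ i) ^ q) * pmV (fun i => P i * Q (σ i)) a b c d
      = pmV P (a + p) b c d * pmV Q (a + q) b c d + pmV P a (b + p) c d * pmV Q a (b + q) c d
        + pmV P a b (c + p) d * pmV Q a b (c + q) d + pmV P a b c (d + p) * pmV Q a b c (d + q) := by
  simp only [pmV_sumF]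
  have h1 : ∀ σ : Equiv.Perm (Fin 4),
      (∑ i, P i ^ p * Q (σ i) ^ q) * ∑ τ : Equiv.Perm (Fin 4),
        (P (τ 0) * Q (σ (τ 0))) ^ a * (P (τ 1) * Q (σ (τ 1))) ^ b * (P (τ 2) * Q (σ (τ 2))) ^ c *
          (P (τ 3) * Q (σ (τ 3))) ^ d =
      ∑ τ : Equiv.Perm (Fin 4),
        ((P (τ 0) ^ (a + p) * P (τ 1) ^ b * P (τ 2) ^ c * P (τ 3) ^ d) *
            (Q ((σ * τ) 0) ^ (a + q) * Q ((σ * τ) 1) ^ b * Q ((σ * τ) 2) ^ c * Q ((σ * τ) 3) ^ d) +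
          (P (τ 0) ^ a * P (τ 1) ^ (b + p) * P (τ 2) ^ c * P (τ 3) ^ d) *
            (Q ((σ * τ) 0) ^ a * Q ((σ * τ) 1) ^ (b + q) * Q ((σ * τ) 2) ^ c * Q ((σ * τ) 3) ^ d) +
          (P (τ 0) ^ a * P (τ 1) ^ b * P (τ 2) ^ (c + p) * P (τ 3) ^ d) *
            (Q ((σ * τ) 0) ^ a * Q ((σ * τ) 1) ^ b * Q ((σ * τ) 2) ^ (c + q) * Q ((σ * τ) 3) ^ d) +
          (P (τ 0) ^ a * P (τ 1) ^ b * P (τ 2) ^ c * P (τ 3) ^ (d + p)) *
            (Q ((σ * τ) 0) ^ a * Q ((σ * τ) 1) ^ b * Q ((σ * τ) 2) ^ c * Q ((σ * τ) 3) ^ (d + q))) := by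
    intro σ
    rw [Finset.mul_sum]
    refine Finset.sum_congr rfl fun τ _ => ?_
    rw [← Equiv.sum_comp τ (fun i => P i ^ p * Q (σ i) ^ q), Fin.sum_univ_four]
    simp only [Equiv.Perm.coe_mul, Function.comp]
    ring
  rw [Finset.sum_congr rfl (fun σ _ => h1 σ), Finset.sum_comm]
  have h2 : ∀ τ : Equiv.Perm (Fin 4),
      ∑ σ : Equiv.Perm (Fin 4),
        ((P (τ 0) ^ (a + p) * P (τ 1) ^ b * P (τ 2) ^ c * P (τ 3) ^ d) *
            (Q ((σ * τ) 0) ^ (a + q) * Q ((σ * τ) 1) ^ b * Q ((σ * τ) 2) ^ c * Q ((σ * τ) 3) ^ d) +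
          (P (τ 0) ^ a * P (τ 1) ^ (b + p) * P (τ 2) ^ c * P (τ 3) ^ d) *
            (Q ((σ * τ) 0) ^ a * Q ((σ * τ) 1) ^ (b + q) * Q ((σ * τ) 2) ^ c * Q ((σ * τ) 3) ^ d) +
          (P (τ 0) ^ a * P (τ 1) ^ b * P (τ 2) ^ (c + p) * P (τ 3) ^ d) *
            (Q ((σ * τ) 0) ^ a * Q ((σ * τ) 1) ^ b * Q ((σ * τ) 2) ^ (c + q) * Q ((σ * τ) 3) ^ d) +
          (P (τ 0) ^ a * P (τ 1) ^ b * P (τ 2) ^ c * P (τ 3) ^ (d + p)) *
            (Q ((σ * τ) 0) ^ a * Q ((σ * τ) 1) ^ b * Q ((σ * τ) 2) ^ c * Q ((σ * τ) 3) ^ (d + q))) =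
      ∑ ρ : Equiv.Perm (Fin 4),
        ((P (τ 0) ^ (a + p) * P (τ 1) ^ b * P (τ 2) ^ c * P (τ 3) ^ d) *
            (Q (ρ 0) ^ (a + q) * Q (ρ 1) ^ b * Q (ρ 2) ^ c * Q (ρ 3) ^ d) +
          (P (τ 0) ^ a * P (τ 1) ^ (b + p) * P (τ 2) ^ c * P (τ 3) ^ d) *
            (Q (ρ 0) ^ a * Q (ρ 1) ^ (b + q) * Q (ρ 2) ^ c * Q (ρ 3) ^ d) +
          (P (τ 0) ^ a * P (τ 1) ^ b * P (τ 2) ^ (c + p) * P (τ 3) ^ d) *
            (Q (ρ 0) ^ a * Q (ρ 1) ^ b * Q (ρ 2) ^ (c + q) * Q (ρ 3) ^ d) +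
          (P (τ 0) ^ a * P (τ 1) ^ b * P (τ 2) ^ c * P (τ 3) ^ (d + p)) *
            (Q (ρ 0) ^ a * Q (ρ 1) ^ b * Q (ρ 2) ^ c * Q (ρ 3) ^ (d + q))) := by
    intro τ
    exact Fintype.sum_equiv (Equiv.mulRight τ) _ _ (fun σ => rfl)
  rw [Finset.sum_congr rfl (fun τ _ => h2 τ)]
  simp only [Finset.sum_add_distrib, Finset.sum_mul_sum]

/-- the four raised terms, `s`-side (with the coefficient) -/
def gS (p : ℕ) (L : TL) : List TL :=
  L.flatMap (fun t => [[(t.1, t.2.1 + p, t.2.2.1, t.2.2.2.1, t.2.2.2.2)],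
    [(t.1, t.2.1, t.2.2.1 + p, t.2.2.2.1, t.2.2.2.2)],
    [(t.1, t.2.1, t.2.2.1, t.2.2.2.1 + p, t.2.2.2.2)],
    [(t.1, t.2.1, t.2.2.1, t.2.2.2.1, t.2.2.2.2 + p)]])

/-- the four raised terms, `t`-side (coefficient one) -/
def gT (q : ℕ) (L : TL) : List TL :=
  L.flatMap (fun t => [[((1 : ℤ), t.2.1 + q, t.2.2.1, t.2.2.2.1, t.2.2.2.2)],
    [((1 : ℤ), t.2.1, t.2.2.1 + q, t.2.2.2.1, t.2.2.2.2)],
    [((1 : ℤ), t.2.1, t.2.2.1, t.2.2.2.1 + q, t.2.2.2.2)],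
    [((1 : ℤ), t.2.1, t.2.2.1, t.2.2.2.1, t.2.2.2.2 + q)]])

/-- all terms have degree at most `D - m` -/
def degOK (m D : ℕ) (L : TL) : Bool :=
  L.all (fun t => decide (t.2.1 + t.2.2.1 + t.2.2.2.1 + t.2.2.2.2 + m ≤ D))

theorem gS_length (p q : ℕ) (L : TL) : (gS p L).length = (gT q L).length := by
  induction L with
  | nil => rfl
  | cons t L ih =>
    unfold gS gT at ih ⊢
    simp only [List.flatMap_cons, List.length_append, ih, List.length_cons, List.length_nil]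

theorem dotRR_mix (D m p q : ℕ) (hp : p ≤ m) (hq : q ≤ m) (L : TL) (hL : degOK m D L = true)
    (P Q : Fin 4 → ℝ) (H H' : ℝ) :
    dotRR ((gS p L).map (fun l => sm D l (P 0) (P 1) (P 2) (P 3) H))
      ((gT q L).map (fun l => sm D l (Q 0) (Q 1) (Q 2) (Q 3) H')) =
    H ^ (m - p) * H' ^ (m - q) * ∑ σ : Equiv.Perm (Fin 4), (∑ i, P i ^ p * Q (σ i) ^ q) *
      sm (D - m) L (P 0 * Q (σ 0)) (P 1 * Q (σ 1)) (P 2 * Q (σ 2)) (P 3 * Q (σ 3)) (H * H') := by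
  induction L with
  | nil => simp [gS, gT, dotRR, sm]
  | cons t L ih =>
    obtain ⟨c, a, b, c', d⟩ := t
    have hL' : a + b + c' + d + m ≤ D ∧ degOK m D L = true := by
      unfold degOK at hL ⊢
      simpa [List.all_cons, Bool.and_eq_true] using hL
    obtain ⟨hdeg, hLt⟩ := hL'
    have ih' := ih hLt
    have hkey := pmV_mix_perm P Q p q a b c' d
    simp only [pmV] at hkey
    set e := D - m - (a + b + c' + d) with he
    have e1 : D - (a + p + b + c' + d) = (m - p) + e := by omega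
    have e2 : D - (a + (b + p) + c' + d) = (m - p) + e := by omega
    have e3 : D - (a + b + (c' + p) + d) = (m - p) + e := by omega
    have e4 : D - (a + b + c' + (d + p)) = (m - p) + e := by omega
    have f1 : D - (a + q + b + c' + d) = (m - q) + e := by omega
    have f2 : D - (a + (b + q) + c' + d) = (m - q) + e := by omega
    have f3 : D - (a + b + (c' + q) + d) = (m - q) + e := by omega
    have f4 : D - (a + b + c' + (d + q)) = (m - q) + e := by omega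
    have hS : gS p ((c, a, b, c', d) :: L) =
        [(c, a + p, b, c', d)] :: [(c, a, b + p, c', d)] :: [(c, a, b, c' + p, d)] ::
          [(c, a, b, c', d + p)] :: gS p L := by
      simp [gS, List.flatMap_cons]
    have hT : gT q ((c, a, b, c', d) :: L) =
        [((1 : ℤ), a + q, b, c', d)] :: [((1 : ℤ), a, b + q, c', d)] ::
          [((1 : ℤ), a, b, c' + q, d)] :: [((1 : ℤ), a, b, c', d + q)] :: gT q L := by
      simp [gT, List.flatMap_cons]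
    rw [hS, hT]
    simp only [List.map_cons, dotRR, sm, ih', e1, e2, e3, e4, f1, f2, f3, f4, ← he]
    simp only [mul_add, Finset.sum_add_distrib]
    have hsum : ∑ σ : Equiv.Perm (Fin 4), (∑ i, P i ^ p * Q (σ i) ^ q) *
        ((c : ℝ) * (pm4 (P 0 * Q (σ 0)) (P 1 * Q (σ 1)) (P 2 * Q (σ 2)) (P 3 * Q (σ 3)) a b c' d *
          (H * H') ^ e)) =
        (c : ℝ) * (H * H') ^ e * ∑ σ : Equiv.Perm (Fin 4), (∑ i, P i ^ p * Q (σ i) ^ q) *
          pm4 (P 0 * Q (σ 0)) (P 1 * Q (σ 1)) (P 2 * Q (σ 2)) (P 3 * Q (σ 3)) a b c' d := by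
      rw [Finset.mul_sum]
      refine Finset.sum_congr rfl fun σ _ => ?_
      ring
    rw [hsum, hkey]
    push_cast
    ring

end Vale.Agent.P154
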